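import Vale.Agent.P091.T.H453.Num
import Vale.Agent.P091.T.Props

/-!
P091, row HULL of the heart.
-/

set_option autoImplicit false

namespace Vale.Agent.P091.T.H453

open Finset Real Filter
open Vale.Agent.P091.T

/-- **row HULL** -/
theorem p_hull : P_HULL := by
  intro c hc
  obtain ⟨D1, hD1⟩ := eventually_atTop.mp (err_small 10 hc)
  refine ⟨max D1 4, fun D n p J j a Y hD hj ha hY hp hs hJ hok => ?_⟩
  have h4 : (4 : ℝ) ≤ D := (le_max_right _ _).trans hD
  have h1 := hD1 D ((le_max_left _ _).trans hD) J.length hJ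
  have h2 := hull_list hj ha (six_le_bb h4) (by linarith) J hok hY hp hs
  linarith

end Vale.Agent.P091.T.H453
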