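import Vale.Agent.P091.T.H453.Num
import Vale.Agent.P091.T.H957.T5B

/-!
P091, T5 (b) in the form of helper957.
-/

set_option autoImplicit false

namespace Vale.Agent.P091.T.H453

open Finset Real Filter
open Vale.Agent.P065.Ent
open Vale.Agent.P091.T
open Vale.Agent.P091.Spec (e anc nd av)
open Vale.Agent.P091.T.H957 (lab T5B)

noncomputable section

/-- change of variables (noises) to (values) -/
theorem sum_muK_val {G : Type*} [Fintype G] [AddCommGroup G] {K : Type*} [Fintype K]
    [DecidableEq K] (lam : G → ℝ) (ρ : K → G → ℝ) (g : G → (K → G) → ℝ) :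
    ∑ w : G × (K → G), muK lam ρ w * g w.1 (val w)
      = ∑ y, lam y * ∑ l : K → G, (∏ k, ρ k (l k - y)) * g y l := by
  unfold muK
  rw [sum_prw lam (wordLaw ρ) (fun y T => g y (val (y, T)))]
  refine sum_congr rfl fun y _ => ?_
  congr 1
  refine Fintype.sum_equiv (Equiv.addLeft (fun _ : K => y)) _ _ fun T => ?_
  have h : (Equiv.addLeft (fun _ : K => y)) T = val (y, T) := by
    funext k
    simp [val]
  rw [h]
  congr 1
  unfold wordLaw
  refine prod_congr rfl fun k _ => ?_
  unfold val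
  simp

variable {n b : ℕ}

/-- sums of `lamY` -/
theorem sum_lamY (p : ℕ → ℝ) {Z : Finset ℕ} (hZ : ∀ i ∈ Z, i < 2 ^ (n + b))
    (hs : 0 < ∑ i ∈ Z, p i) (g : ZMod (2 ^ (n + b)) → ℝ) :
    (∑ i ∈ Z, p i) * ∑ y, lamY n b p Z y * g y
      = ∑ i ∈ Z, p i * g (i : ZMod (2 ^ (n + b))) := by
  have h1 : ∑ y, lamY n b p Z y * g y
      = ∑ i ∈ range (2 ^ (n + b)), cut p Z i / (∑ i ∈ Z, p i) * g (i : ZMod (2 ^ (n + b))) := by
    rw [← sum_zmod_val (2 ^ (n + b))
      (fun i => cut p Z i / (∑ i ∈ Z, p i) * g (i : ZMod (2 ^ (n + b))))]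
    refine sum_congr rfl fun y _ => ?_
    rw [ZMod.natCast_zmod_val]
    rfl
  rw [h1, mul_sum]
  have h2 : ∀ i, (∑ i ∈ Z, p i) * (cut p Z i / (∑ i ∈ Z, p i) * g (i : ZMod (2 ^ (n + b))))
      = if i ∈ Z then p i * g (i : ZMod (2 ^ (n + b))) else 0 := by
    intro i
    unfold cut
    split_ifs
    · field_simp
    · simp
  rw [sum_congr rfl fun i _ => h2 i, ← sum_filter]
  refine sum_congr ?_ fun _ _ => rfl
  ext i
  simp only [mem_filter, mem_range]
  exact ⟨fun h => h.2, fun h => ⟨hZ i h, h⟩⟩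

theorem t5b_list {j t a : ℕ} (hjt : j + t ≤ n) (ha : a < 2 ^ j) (hb : 6 ≤ b) {D ε : ℝ}
    (hD : 0 ≤ D) (J : List (Un n b)) {p : ℕ → ℝ} {Z : Finset ℕ} (hok : ∀ k ∈ J, k.Ok ε D Z)
    (hZ : Z ⊆ nd n j a) (hp : ∀ i, 0 ≤ p i) (hs : 0 < ∑ i ∈ Z, p i) :
    (∑ i ∈ Z, p i) * (F J j - F J (j + t)
        - t5err b (16 * D * J.length) (J.length * (J.length * ε)))
      ≤ ∑ y ∈ Z, ∑ l, lab J p y l * Real.log (2 ^ t *
        ((∑ y' ∈ Z.filter (fun y' => anc n (j + t) y' = anc n (j + t) y), lab J p y' l) /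
          ∑ y' ∈ Z, lab J p y' l)) := by
  classical
  have hj : j ≤ n := by omega
  have hP : ∀ k ∈ J, IsProb k.P := fun k hk => (hok k hk).P1
  have hρ : ∀ k ∈ J, IsProb k.ρ := fun k hk => (hok k hk).ρ1
  have hlam := lamY_isProb (b := b) hj ha hZ hp hs
  have hZlt : ∀ i ∈ Z, i < 2 ^ (n + b) := fun i hi =>
    lt_of_lt_of_le (nd_lt hj ha (hZ hi)).1 (Nat.pow_le_pow_right (by norm_num) (by omega))
  set lam := lamY n b p Z with hlamdef
  have hRJ : ∀ k, IsProb (RJ J k) := fun k => hρ _ (List.get_mem J k)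
  have hmu := muK_isProb hlam hRJ
  have h1 := t5_list (a := a) (t := t) hjt hb hD J hP hρ (fun k hk => (hok k hk).supp)
    (fun k hk => (hok k hk).coh) hlam (fun y hy => (nd_lt hj ha (hZ (lamY_ne hy))).2)
  set Q : ZMod (2 ^ (n + b)) → (Fin J.length → ZMod (2 ^ (n + b))) → ℝ :=
    fun y l => ∏ k, RJ J k (l k - y) with hQ
  -- the probabilities
  have hval : ∀ l, (∑ i ∈ Z, p i) * Pr (muK lam (RJ J)) val l = ∑ y' ∈ Z, lab J p y' l := by
    intro l
    have e1 := sum_muK_val lam (RJ J) (fun _ l' => if l' = l then (1 : ℝ) else 0)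
    have e2 : Pr (muK lam (RJ J)) val l
        = ∑ w, muK lam (RJ J) w * (if val w = l then (1 : ℝ) else 0) := by
      unfold Pr
      exact sum_congr rfl fun w _ => by by_cases h : val w = l <;> simp [h]
    rw [e2, e1]
    have e3 : ∀ y, ∑ l' : Fin J.length → ZMod (2 ^ (n + b)), (∏ k, RJ J k (l' k - y))
        * (if l' = l then (1 : ℝ) else 0) = Q y l := by
      intro y
      simp only [mul_ite, mul_one, mul_zero, sum_ite_eq', mem_univ, if_true]
      rfl
    have e4 : ∑ y, lam y * ∑ l' : Fin J.length → ZMod (2 ^ (n + b)), (∏ k, RJ J k (l' k - y))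
        * (if l' = l then (1 : ℝ) else 0) = ∑ y, lam y * Q y l :=
      sum_congr rfl fun y _ => by rw [e3 y]
    rw [e4, sum_lamY p hZlt hs (fun y => Q y l)]
    rfl
  have hpair : ∀ i l, (∑ i ∈ Z, p i) * Pr (muK lam (RJ J))
      (fun w => (anc n (j + t) w.1.val, val w)) (anc n (j + t) i, l)
      = ∑ y' ∈ Z.filter (fun y' => anc n (j + t) y' = anc n (j + t) i), lab J p y' l := by
    intro i l
    have e1 := sum_muK_val lam (RJ J) (fun y l' =>
      if anc n (j + t) y.val = anc n (j + t) i then (if l' = l then (1 : ℝ) else 0) else 0)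
    have e2 : Pr (muK lam (RJ J)) (fun w => (anc n (j + t) w.1.val, val w)) (anc n (j + t) i, l)
        = ∑ w, muK lam (RJ J) w * (if anc n (j + t) w.1.val = anc n (j + t) i then
          (if val w = l then (1 : ℝ) else 0) else 0) := by
      unfold Pr
      refine sum_congr rfl fun w _ => ?_
      by_cases h1 : anc n (j + t) w.1.val = anc n (j + t) i
      · by_cases h2 : val w = l
        · simp [h1, h2]
        · simp [h1, h2]
      · simp [h1]
    rw [e2, e1]
    have e3 : ∀ y : ZMod (2 ^ (n + b)), ∑ l' : Fin J.length → ZMod (2 ^ (n + b)),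
        (∏ k, RJ J k (l' k - y)) * (if anc n (j + t) y.val = anc n (j + t) i then
          (if l' = l then (1 : ℝ) else 0) else 0)
        = if anc n (j + t) y.val = anc n (j + t) i then Q y l else 0 := by
      intro y
      split_ifs
      · simp only [mul_ite, mul_one, mul_zero, sum_ite_eq', mem_univ, if_true]
        rfl
      · simp
    have e4 : ∑ y, lam y * ∑ l' : Fin J.length → ZMod (2 ^ (n + b)),
        (∏ k, RJ J k (l' k - y)) * (if anc n (j + t) y.val = anc n (j + t) i then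
          (if l' = l then (1 : ℝ) else 0) else 0)
        = ∑ y, lam y * (if anc n (j + t) y.val = anc n (j + t) i then Q y l else 0) :=
      sum_congr rfl fun y _ => by rw [e3 y]
    rw [e4, sum_lamY p hZlt hs (fun y =>
      if anc n (j + t) y.val = anc n (j + t) i then Q y l else 0), sum_filter]
    refine sum_congr rfl fun y' hy' => ?_
    rw [ZMod.val_natCast_of_lt (hZlt y' hy'), mul_ite, mul_zero]
    rfl
  -- the divergence
  have hdiv : (∑ i ∈ Z, p i) * ∑ w, muK lam (RJ J) w * log (2 ^ t *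
        (Pr (muK lam (RJ J)) (fun w => (anc n (j + t) w.1.val, val w))
          (anc n (j + t) w.1.val, val w) / Pr (muK lam (RJ J)) val (val w)))
      = ∑ y ∈ Z, ∑ l, lab J p y l * Real.log (2 ^ t *
        ((∑ y' ∈ Z.filter (fun y' => anc n (j + t) y' = anc n (j + t) y), lab J p y' l) /
          ∑ y' ∈ Z, lab J p y' l)) := by
    rw [sum_muK_val lam (RJ J) (fun y l => log (2 ^ t *
        (Pr (muK lam (RJ J)) (fun w => (anc n (j + t) w.1.val, val w))
          (anc n (j + t) y.val, l) / Pr (muK lam (RJ J)) val l))),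
      sum_lamY p hZlt hs (fun y => ∑ l : Fin J.length → ZMod (2 ^ (n + b)),
        (∏ k, RJ J k (l k - y)) * log (2 ^ t *
        (Pr (muK lam (RJ J)) (fun w => (anc n (j + t) w.1.val, val w))
          (anc n (j + t) y.val, l) / Pr (muK lam (RJ J)) val l)))]
    refine sum_congr rfl fun i hi => ?_
    rw [mul_sum]
    refine sum_congr rfl fun l _ => ?_
    rw [← hval l, ← hpair i l, mul_div_mul_left _ _ hs.ne', ZMod.val_natCast_of_lt (hZlt i hi),
      ← mul_assoc]
    rfl
  rw [← hdiv]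
  refine mul_le_mul_of_nonneg_left ?_ hs.le
  linarith

/-- **T5 (b)** -/
theorem t5b : T5B := by
  intro c hc
  obtain ⟨D1, hD1⟩ := eventually_atTop.mp (err_small 10 hc)
  refine ⟨max D1 4, fun D n p J j a t Z hD hjt ha hZ hp hs hJ hok => ?_⟩
  have h4 : (4 : ℝ) ≤ D := (le_max_right _ _).trans hD
  have h1 := hD1 D ((le_max_left _ _).trans hD) J.length hJ
  have h2 := t5b_list hjt ha (six_le_bb h4) (by linarith) J hok hZ hp hs
  refine le_trans (mul_le_mul_of_nonneg_left ?_ hs.le) h2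
  have h5 : 0 ≤ ep c D * D := by
    unfold ep
    have : 0 ≤ log D := log_nonneg (by linarith)
    have := rpow_nonneg this (-c)
    have : (0 : ℝ) ≤ D := by linarith
    positivity
  have h6 : 0 ≤ (bb D : ℝ) * log 2 := mul_nonneg (by positivity) (log_nonneg (by norm_num))
  have h7 : (0 : ℝ) ≤ J.length * (ep c D * D) := by positivity
  linarith

end

end Vale.Agent.P091.T.H453
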