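import Vale.Agent.P091.T.H453.Num

/-!
P091, row BELL: numerical lemmas.
-/

set_option autoImplicit false

namespace Vale.Agent.P091.T.H453

open Finset Real Filter Asymptotics
open Vale.Agent.P091.T

theorem exists_t0 : ∃ t0 : ℝ, 1 ≤ t0 ∧ ∀ t : ℝ, t0 ≤ t → 80 * t ^ 2 ≤ (2 : ℝ) ^ t := by
  have h1 : (fun x : ℝ => x ^ 2) =o[atTop] fun x => rexp (log 2 * x) :=
    isLittleO_pow_exp_pos_mul_atTop 2 (log_pos (by norm_num))
  obtain ⟨t1, ht1⟩ := eventually_atTop.mp (h1.def (show (0 : ℝ) < 1 / 80 by norm_num))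
  refine ⟨max t1 1, le_max_right _ _, fun t ht => ?_⟩
  have h2 := ht1 t ((le_max_left _ _).trans ht)
  rw [norm_of_nonneg (by positivity), norm_of_nonneg (by positivity)] at h2
  rw [rpow_def_of_pos (by norm_num)]
  linarith

theorem exists_A (K1 : ℝ) (hK : 0 ≤ K1) : ∃ A : ℝ, 1 ≤ A ∧ ∀ s : ℕ,
    1 + 10 * (2 * s + K1) ^ 2 + (2 * s + K1) + 1 ≤ A * (2 : ℝ) ^ ((s : ℝ) / 4) / 5 := by
  set C : ℝ := 2 + 10 * (2 + K1) ^ 2 + (2 + K1) with hC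
  have hC1 : 1 ≤ C := by nlinarith [sq_nonneg (2 + K1)]
  refine ⟨720 * C, by linarith, fun s => ?_⟩
  have hs : (0 : ℝ) ≤ s := by positivity
  have hpow : (1 + (s : ℝ) / 12) ^ 2 ≤ (2 : ℝ) ^ ((s : ℝ) / 4) := by
    have h1 : (2 : ℝ) ^ ((s : ℝ) / 4) = rexp (log 2 * (s / 8)) ^ 2 := by
      rw [rpow_def_of_pos (by norm_num), ← exp_nat_mul]
      congr 1
      push_cast
      ring
    rw [h1]
    have h2 := add_one_le_exp (log 2 * ((s : ℝ) / 8))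
    have h3 := log_two_gt_d9
    have h4 : (s : ℝ) / 12 ≤ log 2 * (s / 8) := by nlinarith
    have h5 : 1 + (s : ℝ) / 12 ≤ rexp (log 2 * (s / 8)) := by linarith
    gcongr
  have h1 : 2 * (s : ℝ) + K1 ≤ (2 + K1) * (1 + s) := by nlinarith
  have h0 : 0 ≤ 2 * (s : ℝ) + K1 := by positivity
  have h2 : (2 * (s : ℝ) + K1) ^ 2 ≤ (2 + K1) ^ 2 * (1 + s) ^ 2 := by
    rw [← mul_pow]; exact pow_le_pow_left₀ h0 h1 2
  have h3 : (1 + (s : ℝ)) ≤ (1 + s) ^ 2 := by nlinarith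
  have h4 : (1 : ℝ) ≤ (1 + s) ^ 2 := by nlinarith
  have h5 : (1 + (s : ℝ)) ^ 2 ≤ 144 * (1 + (s : ℝ) / 12) ^ 2 := by nlinarith
  have h6 : 1 + 10 * (2 * s + K1) ^ 2 + (2 * s + K1) + 1 ≤ C * (1 + (s : ℝ)) ^ 2 := by
    rw [hC]
    have h7 : (2 + K1) * (1 + s) ≤ (2 + K1) * (1 + (s : ℝ)) ^ 2 := by gcongr
    nlinarith
  calc 1 + 10 * (2 * s + K1) ^ 2 + (2 * s + K1) + 1 ≤ C * (1 + (s : ℝ)) ^ 2 := h6
    _ ≤ C * (144 * (1 + (s : ℝ) / 12) ^ 2) := by gcongr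
    _ ≤ C * (144 * (2 : ℝ) ^ ((s : ℝ) / 4)) := by gcongr
    _ = 720 * C * (2 : ℝ) ^ ((s : ℝ) / 4) / 5 := by ring

theorem asym (t0 : ℝ) : ∃ D0 : ℝ, 3 ≤ D0 ∧ ∀ D, D0 ≤ D → 4 ≤ (ll D : ℝ) ∧ (ll D : ℝ) ≤ D ∧
    ((ll D : ℝ) ^ 2 + t0) * Real.log 2 ≤ D ∧ 1 ≤ Real.log D ∧
    2 * Real.logb 2 (Real.log D) ≤ (ll D : ℝ) - 1 ∧ (ll D : ℝ) ^ 3 ≤ (qm D : ℝ) ∧
    (Real.log D) ^ 2 ≤ D := by
  have h1 : ∀ᶠ D : ℝ in atTop, 3 / 2 * log 2 ≤ log (log D) :=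
    (tendsto_log_atTop.comp tendsto_log_atTop).eventually_ge_atTop _
  have h2 := (isLittleO_pow_log_id_atTop (n := 2)).def (show (0 : ℝ) < 1 by norm_num)
  obtain ⟨D1, hD1⟩ := eventually_atTop.mp (((((h1.and (ll_log 1 0 1 one_pos)).and
    (ll_log 2 0 (1 / 2) (by norm_num))).and h2).and
    (eventually_ge_atTop (2 * t0))).and (eventually_ge_atTop (rexp 1)))
  refine ⟨max D1 3, le_max_right _ _, fun D hD => ?_⟩
  obtain ⟨⟨⟨⟨⟨h1, h2⟩, h3⟩, h4⟩, h5⟩, h6⟩ := hD1 D ((le_max_left _ _).trans hD)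
  have hD3 : (3 : ℝ) ≤ D := (le_max_right _ _).trans hD
  have hlog2 : 0 < log 2 := log_pos (by norm_num)
  have hlog21 : log 2 ≤ 1 := by have := log_two_lt_d9; linarith
  have hlogD : 1 ≤ log D := by
    rw [← log_exp 1]; exact log_le_log (exp_pos 1) h6
  have hceil : 2 * logb 2 (log D) ≤ (ll D : ℝ) - 1 := by
    unfold ll
    push_cast
    have := Nat.le_ceil (2 * logb 2 (log D))
    linarith
  have hlb : 3 / 2 ≤ logb 2 (log D) := by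
    unfold logb
    rw [le_div_iff₀ hlog2]
    exact h1
  refine ⟨by linarith, by simpa using h2, ?_, hlogD, hceil, ?_, ?_⟩
  · have h7 : (ll D : ℝ) ^ 2 + t0 ≤ D := by
      have : (ll D : ℝ) ^ 2 ≤ 1 / 2 * D := by simpa using h3
      linarith
    calc ((ll D : ℝ) ^ 2 + t0) * log 2 ≤ D * log 2 := mul_le_mul_of_nonneg_right h7 hlog2.le
      _ ≤ D * 1 := by gcongr
      _ = D := mul_one D
  · unfold qm
    push_cast
    exact pow_le_pow_right₀ (one_le_ll D) (by norm_num)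
  · rw [norm_of_nonneg (by positivity), id, norm_of_nonneg (by linarith), one_mul] at h4
    exact h4

end Vale.Agent.P091.T.H453
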