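import Mathlib
import Vale.Agent.P091.H74.Spec

/-!
P091: exponentials, orthogonality of characters on an interval of integers.
-/

set_option autoImplicit false

namespace Vale.Agent.P091.T.H453

open Finset Real
open Vale.Agent.P091.Spec (e)

noncomputable section

theorem norm_e (t : ℝ) : ‖e t‖ = 1 := by
  unfold e
  rw [show (2 * (π : ℂ) * Complex.I * (t : ℂ)) = ((2 * π * t : ℝ) : ℂ) * Complex.I by
    push_cast; ring]
  exact Complex.norm_exp_ofReal_mul_I _

theorem e_add (s t : ℝ) : e (s + t) = e s * e t := by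
  unfold e
  rw [← Complex.exp_add]
  congr 1
  push_cast
  ring

theorem e_zero : e 0 = 1 := by unfold e; simp

theorem e_neg (t : ℝ) : e (-t) = (starRingEnd ℂ) (e t) := by
  have h1 : e (-t) * e t = 1 := by rw [← e_add, neg_add_cancel, e_zero]
  have h2 : (starRingEnd ℂ) (e t) * e t = 1 := by
    rw [mul_comm, Complex.mul_conj', norm_e]; norm_num
  have h3 : e t ≠ 0 := by
    intro h
    have := norm_e t
    rw [h, norm_zero] at this
    exact zero_ne_one this
  exact mul_right_cancel₀ h3 (h1.trans h2.symm)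

theorem e_int (k : ℤ) : e k = 1 := by
  unfold e
  rw [Complex.exp_eq_one_iff]
  exact ⟨k, by push_cast; ring⟩

theorem e_nat (k : ℕ) : e k = 1 := by simpa using e_int k

theorem e_natmul (n : ℕ) (t : ℝ) : e (n * t) = e t ^ n := by
  unfold e
  rw [← Complex.exp_nat_mul]
  congr 1
  push_cast
  ring

theorem e_eq_one {t : ℝ} (h : e t = 1) : ∃ k : ℤ, t = k := by
  unfold e at h
  rw [Complex.exp_eq_one_iff] at h
  obtain ⟨k, hk⟩ := h
  refine ⟨k, ?_⟩
  have h2 : (2 * (π : ℂ) * Complex.I) ≠ 0 := Complex.two_pi_I_ne_zero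
  have h3 : (t : ℂ) = (k : ℂ) := by
    have : (2 * (π : ℂ) * Complex.I) * (t : ℂ) = (2 * (π : ℂ) * Complex.I) * (k : ℂ) := by
      rw [hk]; ring
    exact mul_left_cancel₀ h2 this
  exact_mod_cast h3

theorem norm_e_sub_one (t : ℝ) : ‖e t - 1‖ ≤ 2 * π * |t| := by
  unfold e
  rw [show (2 * (π : ℂ) * Complex.I * (t : ℂ)) = Complex.I * ((2 * π * t : ℝ) : ℂ) by
    push_cast; ring]
  refine (Real.norm_exp_I_mul_ofReal_sub_one_le (x := 2 * π * t)).trans (le_of_eq ?_)
  rw [Real.norm_eq_abs, abs_mul, abs_of_pos (by positivity : (0 : ℝ) < 2 * π)]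

/-- a full sum of a nontrivial character vanishes -/
theorem sum_e_zero {m : ℕ} {d : ℝ} (hd1 : e (m * d) = 1) (hd : e d ≠ 1) :
    ∑ c ∈ range m, e (c * d) = 0 := by
  have h1 : ∑ c ∈ range m, e (c * d) = ∑ c ∈ range m, e d ^ c :=
    sum_congr rfl fun c _ => e_natmul c d
  rw [h1, geom_sum_eq hd, ← e_natmul, hd1, sub_self, zero_div]

/-- Parseval on `m` consecutive integers, frequencies `k / m`, `k < m`. -/
theorem parseval {R : Type*} (m : ℕ) (F : Finset R) (k : R → ℕ) (hk : ∀ r ∈ F, k r < m)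
    (hinj : ∀ r ∈ F, ∀ r' ∈ F, k r = k r' → r = r') (z : R → ℂ) :
    ∑ c ∈ range m, ‖∑ r ∈ F, z r * e (c * ((k r : ℝ) / m))‖ ^ 2 = m * ∑ r ∈ F, ‖z r‖ ^ 2 := by
  rcases Nat.eq_zero_or_pos m with h0 | hm
  · subst h0; simp
  have hm' : (m : ℝ) ≠ 0 := by exact_mod_cast hm.ne'
  have h1 : ∀ c : ℕ, ((‖∑ r ∈ F, z r * e (c * ((k r : ℝ) / m))‖ ^ 2 : ℝ) : ℂ)
      = ∑ r ∈ F, ∑ r' ∈ F, (z r * (starRingEnd ℂ) (z r'))
        * e (c * (((k r : ℝ) - k r') / m)) := by
    intro c
    rw [Complex.ofReal_pow, ← Complex.conj_mul', map_sum, mul_comm, sum_mul_sum]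
    refine sum_congr rfl fun r _ => sum_congr rfl fun r' _ => ?_
    rw [map_mul, ← e_neg]
    have : e (c * (((k r : ℝ) - k r') / m)) = e (c * ((k r : ℝ) / m)) * e (-(c * ((k r' : ℝ) / m))) := by
      rw [← e_add]; congr 1; ring
    rw [this]
    ring
  have h2 : ((∑ c ∈ range m, ‖∑ r ∈ F, z r * e (c * ((k r : ℝ) / m))‖ ^ 2 : ℝ) : ℂ)
      = ((m * ∑ r ∈ F, ‖z r‖ ^ 2 : ℝ) : ℂ) := by
    push_cast
    have h1' := fun c => h1 c
    push_cast at h1'
    rw [sum_congr rfl fun c _ => h1' c, sum_comm, mul_sum]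
    refine sum_congr rfl fun r hr => ?_
    rw [sum_comm, sum_eq_single r]
    · rw [← mul_sum]
      simp only [sub_self, zero_div, mul_zero, e_zero, sum_const, card_range, nsmul_eq_mul,
        mul_one]
      rw [Complex.mul_conj']
      ring
    · intro r' hr' hne
      rw [← mul_sum, sum_e_zero, mul_zero]
      · rw [mul_div_cancel₀ _ hm']
        have := e_int ((k r : ℤ) - k r')
        push_cast at this
        exact this
      · intro h
        obtain ⟨j, hj⟩ := e_eq_one h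
        rw [div_eq_iff hm'] at hj
        have hj' : ((k r : ℤ) - k r') = j * m := by exact_mod_cast hj
        have h3 := hk r hr
        have h4 := hk r' hr'
        have h5 : j = 0 := by
          by_contra hj0
          rcases lt_or_gt_of_ne hj0 with h | h
          · have : j * (m : ℤ) ≤ -1 * m := mul_le_mul_of_nonneg_right (by omega) (by positivity)
            omega
          · have : 1 * (m : ℤ) ≤ j * m := mul_le_mul_of_nonneg_right (by omega) (by positivity)
            omega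
        rw [h5, zero_mul] at hj'
        exact hne (hinj r' hr' r hr (by omega))
    · intro h; exact absurd hr h
  exact_mod_cast h2

/-- Bessel inequality on a shifted shorter interval. -/
theorem bessel {R : Type*} (m n c0 : ℕ) (hn : n ≤ m) (F : Finset R) (k : R → ℕ)
    (hk : ∀ r ∈ F, k r < m) (hinj : ∀ r ∈ F, ∀ r' ∈ F, k r = k r' → r = r') (z : R → ℂ) :
    ∑ c ∈ range n, ‖∑ r ∈ F, z r * e ((c0 + c) * ((k r : ℝ) / m))‖ ^ 2
      ≤ m * ∑ r ∈ F, ‖z r‖ ^ 2 := by
  have h1 := parseval m F k hk hinj (fun r => z r * e (c0 * ((k r : ℝ) / m)))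
  have h2 : ∑ r ∈ F, ‖z r * e (c0 * ((k r : ℝ) / m))‖ ^ 2 = ∑ r ∈ F, ‖z r‖ ^ 2 :=
    sum_congr rfl fun r _ => by rw [norm_mul, norm_e, mul_one]
  rw [h2] at h1
  rw [← h1]
  have h3 : ∀ c : ℕ, ‖∑ r ∈ F, z r * e ((c0 + c) * ((k r : ℝ) / m))‖ ^ 2
      = ‖∑ r ∈ F, z r * e (c0 * ((k r : ℝ) / m)) * e (c * ((k r : ℝ) / m))‖ ^ 2 := by
    intro c
    congr 2
    refine sum_congr rfl fun r _ => ?_
    rw [add_mul, e_add, mul_assoc]
  rw [sum_congr rfl fun c _ => h3 c]
  exact sum_le_sum_of_subset_of_nonneg (range_subset_range.mpr hn) fun _ _ _ => by positivity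

end

end Vale.Agent.P091.T.H453
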