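import Vale.Agent.P091.T.H453.Lst

/-!
P091, T5 for a list of units: the level inequality (input of DROP) and the potential inequality
(row HULL), explicit error.
-/

set_option autoImplicit false

namespace Vale.Agent.P091.T.H453

open Finset Real
open Vale.Agent.P065.Ent
open Vale.Agent.P091.T
open Vale.Agent.P091.Spec (e anc nd av)

noncomputable section

theorem t5err_mono {b : ℕ} {M s s' : ℝ} (hM : 0 ≤ M) (h : s ≤ s') : t5err b M s ≤ t5err b M s' := by
  unfold t5err
  have := mul_le_mul_of_nonneg_left h (show (0 : ℝ) ≤ 24 * M by positivity)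
  nlinarith

/-- T5 in the integer model. -/
theorem t5_int {ΩS Ω Lb : Type*} [Fintype ΩS] [Fintype Ω] (n j t b a : ℕ) (hjt : j + t ≤ n)
    (hb : 6 ≤ b) {PS : ΩS → ℝ} (hPS : IsProb PS) (R : ΩS → ℕ)
    {w : Ω → ℝ} (hw : IsProb w) (Y : Ω → ℕ) (hY : ∀ ω, 0 < w ω → anc n j (Y ω) = a)
    (Lab : Ω → Lb) (ψ : ΩS → Lb → ℂ) (hψ : ∀ S l, ‖ψ S l‖ ≤ 1)
    {M : ℝ} (hM : log (suppCard PS R j) ≤ M) (hM0 : 0 ≤ M) {s : ℝ}
    (hs : ∑ S, PS S * ∑ ω, w ω * ‖e ((R S : ℝ) * Y ω / 2 ^ (n + b)) - ψ S (Lab ω)‖ ^ 2 ≤ s) :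
    Hc PS (fun S => R S / 2 ^ j) (fun S => R S / 2 ^ (j + t))
      ≤ ∑ ω, w ω * log (2 ^ t * (Pr w (fun ω => (anc n (j + t) (Y ω), Lab ω))
          (anc n (j + t) (Y ω), Lab ω) / Pr w Lab (Lab ω))) + t5err b M s := by
  obtain ⟨q, rfl⟩ := Nat.exists_eq_add_of_le hjt
  have h1 : j + t + q - j = t + q := by omega
  have h2 : j + t + q - (j + t) = q := by omega
  have h3 : j + (t + q) + b = j + t + q + b := by omega
  unfold anc at *
  rw [h1] at hY
  rw [h2]
  have h := t5_aux j t q b a hb hPS R hw Y hY Lab ψ hψ hM hM0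
  rw [h3] at h
  exact h.trans (by gcongr; exact t5err_mono hM0 hs)

section list
variable {n b : ℕ}

theorem norm_prod_ch {K : Type*} (s : Finset K) (f : K → ZMod (2 ^ (n + b))) :
    ‖∏ k ∈ s, ch n b (f k)‖ = 1 := by rw [norm_prod]; exact prod_eq_one fun k _ => norm_ch _

/-- **T5 (b) for a list**: entropy drop of the list between the levels `j` and `j + t`. -/
theorem t5_list {j t a : ℕ} (hjt : j + t ≤ n) (hb : 6 ≤ b) {D ε : ℝ} (hD : 0 ≤ D)
    (J : List (Un n b)) (hP : ∀ k ∈ J, IsProb k.P) (hρ : ∀ k ∈ J, IsProb k.ρ)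
    (hsup : ∀ k ∈ J, ((univ.filter fun r => k.P r ≠ 0).card : ℝ) ≤ rexp (16 * D))
    (hcoh : ∀ k ∈ J, ∑ r, ∑ t, k.P r * k.ρ t * ‖1 - ch n b (r * t)‖ ^ 2 ≤ ε)
    {lam : ZMod (2 ^ (n + b)) → ℝ} (hlam : IsProb lam)
    (hY : ∀ y, lam y ≠ 0 → anc n j y.val = a) :
    F J j - F J (j + t) ≤ ∑ w, muK lam (RJ J) w * log (2 ^ t *
        (Pr (muK lam (RJ J)) (fun w => (anc n (j + t) w.1.val, val w))
          (anc n (j + t) w.1.val, val w) / Pr (muK lam (RJ J)) val (val w)))
      + t5err b (16 * D * J.length) (J.length * (J.length * ε)) := by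
  rw [F_sub J (by omega)]
  have hmu := muK_isProb hlam (ρ := RJ J) (fun k => hρ _ (List.get_mem J k))
  refine t5_int n j t b a hjt hb (wordLaw_isProb (PJ_isProb hP)) (rN J) hmu
    (fun w => w.1.val) ?_ val (fun S l => ∏ k, ch n b (S k * l k))
    (fun S l => (norm_prod_ch univ _).le) ?_ (by positivity) (coherence hlam J hP hρ hcoh)
  · intro w hw
    refine hY _ fun h0 => ?_
    have : muK lam (RJ J) w = lam w.1 * wordLaw (RJ J) w.2 := rfl
    rw [this, h0, zero_mul] at hw
    exact lt_irrefl _ hw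
  · rcases Nat.eq_zero_or_pos (suppCard (wordLaw (PJ J)) (rN J) j) with h0 | h0
    · rw [h0]; simp only [Nat.cast_zero, log_zero]; positivity
    · have h1 := log_le_log (by exact_mod_cast h0) (suppCard_le J hsup j)
      rw [log_pow, log_exp] at h1
      linarith

theorem Pr_fst {K : Type*} [Fintype K] [DecidableEq K] {G : Type*} [Fintype G] {β : Type*}
    (lam : G → ℝ) {ρ : K → G → ℝ} (hρ : ∀ k, IsProb (ρ k)) (cl : G → β) (c : β) :
    Pr (muK lam ρ) (fun w => cl w.1) c = Pr lam cl c := by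
  classical
  unfold Pr
  calc (∑ w : G × (K → G), if cl w.1 = c then muK lam ρ w else 0)
      = ∑ w : G × (K → G), prw lam (wordLaw ρ) w * (if cl w.1 = c then (1 : ℝ) else 0) :=
        sum_congr rfl fun w _ => by rw [mul_ite, mul_one, mul_zero]; rfl
    _ = ∑ y, lam y * ∑ T, wordLaw ρ T * (if cl y = c then (1 : ℝ) else 0) :=
        sum_prw lam (wordLaw ρ) (fun y _ => if cl y = c then (1 : ℝ) else 0)
    _ = ∑ y, if cl y = c then lam y else 0 := by
        refine sum_congr rfl fun y _ => ?_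
        rw [← sum_mul, (wordLaw_isProb hρ).sum, one_mul, mul_ite, mul_one, mul_zero]

theorem muK_cnd {K : Type*} [Fintype K] [DecidableEq K] {G : Type*} [Fintype G] {β : Type*}
    (lam : G → ℝ) {ρ : K → G → ℝ} (hρ : ∀ k, IsProb (ρ k)) (cl : G → β) (c : β) :
    muK (cnd lam cl c) ρ = cnd (muK lam ρ) (fun w => cl w.1) c := by
  classical
  funext w
  unfold cnd muK prw
  have h := Pr_fst lam hρ cl c
  unfold muK prw at h
  rw [h]
  by_cases h1 : cl w.1 = c
  · simp only [h1, if_true]; ring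
  · simp only [h1, if_false, zero_mul]

/-- **the level hypothesis of DROP** (helper957), for the sub-population `cl = c`. -/
theorem hlev {j r a : ℕ} (hjr : j + r ≤ n) (hb : 6 ≤ b) {D ε : ℝ} (hD : 0 ≤ D)
    (J : List (Un n b)) (hP : ∀ k ∈ J, IsProb k.P) (hρ : ∀ k ∈ J, IsProb k.ρ)
    (hsup : ∀ k ∈ J, ((univ.filter fun r => k.P r ≠ 0).card : ℝ) ≤ rexp (16 * D))
    (hcoh : ∀ k ∈ J, ∑ r, ∑ t, k.P r * k.ρ t * ‖1 - ch n b (r * t)‖ ^ 2 ≤ ε)
    {lam : ZMod (2 ^ (n + b)) → ℝ} (hlam : IsProb lam)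
    (hY : ∀ y, lam y ≠ 0 → anc n j y.val = a) {β : Type*} [DecidableEq β]
    (cl : ZMod (2 ^ (n + b)) → β) (c : β) :
    Pr (muK lam (RJ J)) (fun w => cl w.1) c *
        (F J j - F J (j + r) - t5err b (16 * D * J.length) (J.length * (J.length * ε)))
      ≤ ∑ w, if cl w.1 = c then muK lam (RJ J) w * log (2 ^ r *
          (Pr (muK lam (RJ J)) (fun w' => (anc n (j + r) w'.1.val, (val w', cl w'.1)))
            (anc n (j + r) w.1.val, (val w, cl w.1))
          / Pr (muK lam (RJ J)) (fun w' => (val w', cl w'.1)) (val w, cl w.1))) else 0 := by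
  classical
  have hRJ : ∀ k, IsProb (RJ J k) := fun k => hρ _ (List.get_mem J k)
  have hmu := muK_isProb hlam hRJ
  set mu := muK lam (RJ J) with hmudef
  rcases (Pr_nonneg hmu (fun w => cl w.1) c).eq_or_lt with h0 | h0
  · rw [← h0, zero_mul]
    refine le_of_eq (sum_eq_zero fun w _ => ?_).symm
    split_ifs with h
    · have h2 := le_Pr hmu (fun w => cl w.1) w
      simp only [h] at h2
      rw [← h0] at h2
      rw [le_antisymm h2 (hmu.nonneg w), zero_mul]
    · rfl
  · have h0' : 0 < Pr lam cl c := by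
      have := Pr_fst lam hRJ cl c
      rw [← this]; exact h0
    have hl' := cnd_isProb hlam h0'
    have hY' : ∀ y, cnd lam cl c y ≠ 0 → anc n j y.val = a := by
      intro y hy
      refine hY y fun h => hy ?_
      unfold cnd
      rw [h, zero_div, ite_self]
    have h1 := t5_list hjr hb hD J hP hρ hsup hcoh hl' hY'
    rw [muK_cnd lam hRJ cl c, ← hmudef] at h1
    have h2 := mul_le_mul_of_nonneg_left h1 h0.le
    rw [mul_add, sum_cnd mu (fun w => cl w.1) c _ h0.ne'] at h2
    have h3 : ∀ w, (if cl w.1 = c then mu w * log (2 ^ r *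
          (Pr (cnd mu (fun w => cl w.1) c) (fun w => (anc n (j + r) w.1.val, val w))
            (anc n (j + r) w.1.val, val w)
          / Pr (cnd mu (fun w => cl w.1) c) val (val w))) else 0)
        = if cl w.1 = c then mu w * log (2 ^ r *
          (Pr mu (fun w' => (anc n (j + r) w'.1.val, (val w', cl w'.1)))
            (anc n (j + r) w.1.val, (val w, cl w.1))
          / Pr mu (fun w' => (val w', cl w'.1)) (val w, cl w.1))) else 0 := by
      intro w
      split_ifs with hc
      · rw [Pr_cnd, Pr_cnd]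
        have e1 : Pr mu (fun ω => ((anc n (j + r) ω.1.val, val ω), cl ω.1))
            ((anc n (j + r) w.1.val, val w), c)
            = Pr mu (fun w' => (anc n (j + r) w'.1.val, (val w', cl w'.1)))
            (anc n (j + r) w.1.val, (val w, cl w.1)) := by
          rw [← hc]
          refine Pr_congr (X := fun ω : _ × (Fin J.length → ZMod (2 ^ (n + b))) =>
            ((anc n (j + r) ω.1.val, val ω), cl ω.1))
            (Y := fun w' => (anc n (j + r) w'.1.val, (val w', cl w'.1))) ?_ ?_ w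
          · intro x y h
            simp only [Prod.mk.injEq] at h ⊢
            tauto
          · intro x y h
            simp only [Prod.mk.injEq] at h ⊢
            tauto
        rw [e1, hc, div_div_div_cancel_right₀ h0.ne']
      · rfl
    rw [sum_congr rfl fun w _ => h3 w] at h2
    rw [mul_sub]
    linarith

end list

end

end Vale.Agent.P091.T.H453
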