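import Vale.Agent.P091.T.H453.Hull

/-!
P091, row HULL, explicit error: the entropy of a list is at most the relative entropy of the point.
-/

set_option autoImplicit false

namespace Vale.Agent.P091.T.H453

open Finset Real
open Vale.Agent.P065.Ent
open Vale.Agent.P091.T
open Vale.Agent.P091.Spec (e anc nd av)

noncomputable section

/-- sums over `ZMod N` of a function of the representative -/
theorem sum_zmod_val (N : ℕ) [NeZero N] (f : ℕ → ℝ) :
    ∑ y : ZMod N, f y.val = ∑ i ∈ range N, f i := by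
  refine sum_bij' (fun y _ => y.val) (fun i _ => (i : ZMod N)) ?_ ?_ ?_ ?_ ?_
  · intro y _; exact mem_range.mpr (ZMod.val_lt y)
  · intro i _; exact mem_univ _
  · intro y _; simp
  · intro i hi; exact ZMod.val_natCast_of_lt (mem_range.mp hi)
  · intro y _; rfl

variable {n b : ℕ}

/-- the normalised law of `p` on `Y`, as a law on `ZMod N` -/
def lamY (n b : ℕ) (p : ℕ → ℝ) (Y : Finset ℕ) (y : ZMod (2 ^ (n + b))) : ℝ :=
  cut p Y y.val / ∑ i ∈ Y, p i

theorem nd_lt {j a : ℕ} (hj : j ≤ n) (ha : a < 2 ^ j) {i : ℕ} (hi : i ∈ nd n j a) :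
    i < 2 ^ n ∧ anc n j i = a := by
  unfold nd at hi
  rw [mem_Ico] at hi
  constructor
  · refine lt_of_lt_of_le hi.2 ?_
    calc (a + 1) * 2 ^ (n - j) ≤ 2 ^ j * 2 ^ (n - j) := Nat.mul_le_mul_right _ ha
      _ = 2 ^ n := by rw [← pow_add, Nat.add_sub_cancel' hj]
  · unfold anc
    exact Nat.div_eq_of_lt_le hi.1 hi.2

theorem sum_cut {p : ℕ → ℝ} {Y s : Finset ℕ} (h : Y ⊆ s) : ∑ i ∈ s, cut p Y i = ∑ i ∈ Y, p i := by
  unfold cut
  rw [← sum_filter]
  congr 1
  ext i
  simp only [mem_filter]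
  exact ⟨fun h' => h'.2, fun h' => ⟨h h', h'⟩⟩

theorem lamY_isProb {j a : ℕ} (hj : j ≤ n) (ha : a < 2 ^ j) {p : ℕ → ℝ} {Y : Finset ℕ}
    (hY : Y ⊆ nd n j a) (hp : ∀ i, 0 ≤ p i) (hs : 0 < ∑ i ∈ Y, p i) :
    IsProb (lamY n b p Y) := by
  refine ⟨fun y => ?_, ?_⟩
  · unfold lamY cut
    split_ifs
    · exact div_nonneg (hp _) hs.le
    · simp
  · unfold lamY
    rw [← sum_div, sum_zmod_val (2 ^ (n + b)) (fun i => cut p Y i), sum_cut, div_self hs.ne']
    intro i hi
    rw [mem_range]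
    refine lt_of_lt_of_le (nd_lt hj ha (hY hi)).1 ?_
    exact Nat.pow_le_pow_right (by norm_num) (by omega)

theorem lamY_ne {p : ℕ → ℝ} {Y : Finset ℕ} {y : ZMod (2 ^ (n + b))} (h : lamY n b p Y y ≠ 0) :
    y.val ∈ Y := by
  by_contra h'
  apply h
  unfold lamY cut
  rw [if_neg h', zero_div]

/-- relative entropy of the law on `ZMod N` -/
theorem KL_eq {j a : ℕ} (hj : j ≤ n) (ha : a < 2 ^ j) {p : ℕ → ℝ} {Y : Finset ℕ}
    (hY : Y ⊆ nd n j a) :
    ∑ y : ZMod (2 ^ (n + b)), lamY n b p Y y * log (lamY n b p Y y / (2 ^ (n - j) : ℝ)⁻¹)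
      = KL n j a (cut p Y) := by
  unfold lamY KL
  rw [sum_zmod_val (2 ^ (n + b)) (fun i => cut p Y i / (∑ i ∈ Y, p i) *
    log (cut p Y i / (∑ i ∈ Y, p i) / (2 ^ (n - j) : ℝ)⁻¹)), sum_cut hY]
  symm
  have hsub : nd n j a ⊆ range (2 ^ (n + b)) := by
    intro i hi
    rw [mem_range]
    refine lt_of_lt_of_le (nd_lt hj ha hi).1 ?_
    exact Nat.pow_le_pow_right (by norm_num) (by omega)
  have h1 : ∀ i, cut p Y i / (∑ i ∈ Y, p i) * log (cut p Y i / (∑ i ∈ Y, p i) / (2 ^ (n - j) : ℝ)⁻¹)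
      = cut p Y i / (∑ i ∈ Y, p i) * log (cut p Y i * 2 ^ (n - j) / ∑ i ∈ Y, p i) := by
    intro i
    congr 2
    rw [div_inv_eq_mul]
    ring
  rw [sum_congr rfl fun i _ => h1 i]
  refine sum_subset hsub fun i _ hi => ?_
  have : cut p Y i = 0 := by
    unfold cut
    rw [if_neg fun h => hi (hY h)]
  rw [this, zero_div, zero_mul]

/-- the entropy of a list at the level of the leaves -/
theorem F_leaf_le {J : List (Un n b)} (hP : ∀ k ∈ J, IsProb k.P) : F J n ≤ b * log 2 := by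
  unfold F
  have h := H_le_log (lawR_isProb hP) (rd n b n) univ (fun _ => mem_univ _)
    (by rw [card_univ, ZMod.card]; positivity)
  refine h.trans (le_of_eq ?_)
  rw [card_univ, ZMod.card, Nat.add_sub_cancel_left]
  push_cast
  rw [log_pow]

/-- **HULL with explicit error** -/
theorem hull_list {j a : ℕ} (hj : j ≤ n) (ha : a < 2 ^ j) (hb : 6 ≤ b) {D ε : ℝ} (hD : 0 ≤ D)
    (J : List (Un n b)) {p : ℕ → ℝ} {Y : Finset ℕ} (hok : ∀ k ∈ J, k.Ok ε D Y)
    (hY : Y ⊆ nd n j a) (hp : ∀ i, 0 ≤ p i) (hs : 0 < ∑ i ∈ Y, p i) :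
    F J j ≤ KL n j a (cut p Y) + J.length * (ε * D) + b * log 2
      + t5err b (16 * D * J.length) (J.length * (J.length * ε)) := by
  classical
  have hP : ∀ k ∈ J, IsProb k.P := fun k hk => (hok k hk).P1
  have hρ : ∀ k ∈ J, IsProb k.ρ := fun k hk => (hok k hk).ρ1
  have hlam := lamY_isProb (b := b) hj ha hY hp hs
  set lam := lamY n b p Y with hlamdef
  have h1 := t5_list (a := a) (t := n - j) (by omega) hb hD J hP hρ (fun k hk => (hok k hk).supp)
    (fun k hk => (hok k hk).coh) hlam (fun y hy => (nd_lt hj ha (hY (lamY_ne hy))).2)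
  rw [Nat.add_sub_cancel' hj] at h1
  have hRJ : ∀ k, IsProb (RJ J k) := fun k => hρ _ (List.get_mem J k)
  have hmu := muK_isProb hlam hRJ
  have h2 := Dj_le hlam hRJ (fun y => anc n n y.val) (fun _ => (2 ^ (n - j) : ℝ)⁻¹)
    (fun y y' h => by
      simp only [anc, Nat.sub_self, pow_zero, Nat.div_one] at h
      exact ZMod.val_injective _ h)
    (fun y _ => by positivity)
  have h3 : Dj (muK lam (RJ J)) (fun w => anc n n w.1.val) val (fun _ => (2 ^ (n - j) : ℝ)⁻¹)
      = ∑ w, muK lam (RJ J) w * log (2 ^ (n - j) *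
        (Pr (muK lam (RJ J)) (fun w => (anc n n w.1.val, val w))
          (anc n n w.1.val, val w) / Pr (muK lam (RJ J)) val (val w))) := by
    unfold Dj
    refine sum_congr rfl fun w _ => ?_
    rcases (hmu.nonneg w).eq_or_lt with h | h
    · rw [← h]; simp
    · have h4 := (Pr_pos hmu (val : _ × (Fin J.length → ZMod (2 ^ (n + b))) → _) h).ne'
      congr 2
      field_simp
  have h4 : ∑ k, I (prw lam (RJ J k)) (fun w => w.1) (fun w => w.1 + w.2) (fun _ => ())
      ≤ J.length * (ε * D) := by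
    calc _ ≤ ∑ _k : Fin J.length, ε * D := by
          refine sum_le_sum fun k _ => ?_
          refine (hok _ (List.get_mem J k)).info lam hlam fun y hy => ?_
          exact ⟨y.val, lamY_ne hy, by simp⟩
      _ = _ := by simp
  have h5 := F_leaf_le hP
  have h6 : ∑ y, lam y * log (lam y / (2 ^ (n - j) : ℝ)⁻¹) = KL n j a (cut p Y) :=
    KL_eq hj ha hY
  rw [h6, h3] at h2
  linarith

end

end Vale.Agent.P091.T.H453
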