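import Vale.Agent.P091.T.H453.T5
import Vale.Agent.P091.T.H453.Expo

/-!
P091, T5 in the integer model: leaves `0 ≤ y < 2^n`, letters `R` (naturals, characters
`e (R y / 2^(n+b))`), rounding of letters at level `j` = `R / 2^j`.
-/

set_option autoImplicit false

namespace Vale.Agent.P091.T.H453

open Finset Real
open Vale.Agent.P065.Ent
open Vale.Agent.P091.Spec (e)

noncomputable section

variable {ΩS Ω Lb : Type*} [Fintype ΩS] [Fintype Ω]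

/-- number of rounded letters of positive probability -/
def suppCard (PS : ΩS → ℝ) (R : ΩS → ℕ) (j : ℕ) : ℕ :=
  open Classical in ((univ.filter (fun S => 0 < PS S)).image (fun S => R S / 2 ^ j)).card

/-- the error of T5 -/
def t5err (b : ℕ) (M s : ℝ) : ℝ :=
  12 * M * (2 * s + 2 * (2 * π / 2 ^ b) ^ 2) + log (1 + 2 ^ b) + log (2 * M + 2) + log 8 + 1

theorem two_pi_div_le {b : ℕ} (hb : 6 ≤ b) : 2 * π / 2 ^ b ≤ 1 / 8 := by
  have h1 : (2 : ℝ) ^ 6 ≤ 2 ^ b := pow_le_pow_right₀ (by norm_num) hb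
  have h2 := Real.pi_lt_d2
  rw [div_le_iff₀ (by positivity)]
  linarith

/-- rounding a letter at level `j` on a node of level `j`. -/
theorem round_letter (j m b : ℕ) (R y a : ℕ) (hy : y / 2 ^ m = a) (z : ℂ) :
    ‖e (((2 ^ j * (R / 2 ^ j) : ℕ) : ℝ) * y / 2 ^ (j + m + b))
      - e (-(((R % 2 ^ j : ℕ) : ℝ) * (a * 2 ^ m) / 2 ^ (j + m + b))) * z‖ ^ 2
      ≤ 2 * ‖e ((R : ℝ) * y / 2 ^ (j + m + b)) - z‖ ^ 2 + 2 * (2 * π / 2 ^ b) ^ 2 := by
  set N : ℝ := 2 ^ (j + m + b) with hN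
  have hN0 : 0 < N := by positivity
  set δ : ℝ := ((R % 2 ^ j : ℕ) : ℝ) with hδ
  set y' : ℝ := ((y % 2 ^ m : ℕ) : ℝ) with hy'
  have hR : (R : ℝ) = ((2 ^ j * (R / 2 ^ j) : ℕ) : ℝ) + δ := by
    rw [hδ]; exact_mod_cast (Nat.div_add_mod R (2 ^ j)).symm
  have hY : (y : ℝ) = a * 2 ^ m + y' := by
    rw [hy', ← hy]
    have := (Nat.div_add_mod y (2 ^ m)).symm
    have h2 : (y : ℝ) = (2 ^ m : ℕ) * ((y / 2 ^ m : ℕ) : ℝ) + ((y % 2 ^ m : ℕ) : ℝ) := by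
      exact_mod_cast this
    push_cast at h2 ⊢
    linarith
  have hδ1 : δ ≤ 2 ^ j := by
    rw [hδ]; exact_mod_cast (Nat.mod_lt R (by positivity)).le
  have hy1 : y' ≤ 2 ^ m := by
    rw [hy']; exact_mod_cast (Nat.mod_lt y (by positivity)).le
  have hδ0 : 0 ≤ δ := by rw [hδ]; positivity
  have hy0 : 0 ≤ y' := by rw [hy']; positivity
  have h1 : e (((2 ^ j * (R / 2 ^ j) : ℕ) : ℝ) * y / N)
      = e (-(δ * (a * 2 ^ m) / N)) * (e ((R : ℝ) * y / N) * e (-(δ * y' / N))) := by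
    rw [← e_add, ← e_add]
    congr 1
    rw [hR, hY]
    ring
  rw [h1, ← mul_sub, norm_mul, norm_e, one_mul]
  have h2 : ‖e ((R : ℝ) * y / N) * e (-(δ * y' / N)) - z‖
      ≤ ‖e ((R : ℝ) * y / N) - z‖ + 2 * π / 2 ^ b := by
    have h3 : e ((R : ℝ) * y / N) * e (-(δ * y' / N)) - z
        = (e ((R : ℝ) * y / N) - z) + e ((R : ℝ) * y / N) * (e (-(δ * y' / N)) - 1) := by ring
    rw [h3]
    refine (norm_add_le _ _).trans ?_
    rw [norm_mul, norm_e, one_mul]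
    have h4 := norm_e_sub_one (-(δ * y' / N))
    have h5 : |-(δ * y' / N)| ≤ 1 / 2 ^ b := by
      rw [abs_neg, abs_of_nonneg (by positivity), div_le_div_iff₀ hN0 (by positivity), one_mul]
      have h6 : δ * y' ≤ 2 ^ j * 2 ^ m := mul_le_mul hδ1 hy1 hy0 (by positivity)
      calc δ * y' * 2 ^ b ≤ 2 ^ j * 2 ^ m * 2 ^ b := mul_le_mul_of_nonneg_right h6 (by positivity)
        _ = N := by rw [hN, pow_add, pow_add]
    have h7 : 2 * π * |-(δ * y' / N)| ≤ 2 * π / 2 ^ b := by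
      calc 2 * π * |-(δ * y' / N)| ≤ 2 * π * (1 / 2 ^ b) :=
            mul_le_mul_of_nonneg_left h5 (by positivity)
        _ = _ := by ring
    linarith
  calc ‖e ((R : ℝ) * y / N) * e (-(δ * y' / N)) - z‖ ^ 2
      ≤ (‖e ((R : ℝ) * y / N) - z‖ + 2 * π / 2 ^ b) ^ 2 := by gcongr
    _ ≤ _ := by nlinarith [sq_nonneg (‖e ((R : ℝ) * y / N) - z‖ - 2 * π / 2 ^ b)]

/-- T5 in the integer model, `n = j + t + q`. -/
theorem t5_aux (j t q b a : ℕ) (hb : 6 ≤ b) {PS : ΩS → ℝ} (hPS : IsProb PS) (R : ΩS → ℕ)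
    {w : Ω → ℝ} (hw : IsProb w) (Y : Ω → ℕ) (hY : ∀ ω, 0 < w ω → Y ω / 2 ^ (t + q) = a)
    (Lab : Ω → Lb) (ψ : ΩS → Lb → ℂ) (hψ : ∀ S l, ‖ψ S l‖ ≤ 1)
    {M : ℝ} (hM : log (suppCard PS R j) ≤ M) (hM0 : 0 ≤ M) :
    Hc PS (fun S => R S / 2 ^ j) (fun S => R S / 2 ^ (j + t))
      ≤ ∑ ω, w ω * log (2 ^ t * (Pr w (fun ω => (Y ω / 2 ^ q, Lab ω)) (Y ω / 2 ^ q, Lab ω)
          / Pr w Lab (Lab ω)))
        + t5err b M (∑ S, PS S * ∑ ω, w ω *
          ‖e ((R S : ℝ) * Y ω / 2 ^ (j + (t + q) + b)) - ψ S (Lab ω)‖ ^ 2) := by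
  classical
  set Pos : Ω → Fin (2 ^ t) := fun ω => ⟨(Y ω / 2 ^ q) % 2 ^ t, Nat.mod_lt _ (by positivity)⟩
    with hPos
  set F : ℕ → Finset ℕ := fun ρ =>
    (univ.filter (fun S => 0 < PS S ∧ R S / 2 ^ (j + t) = ρ)).image (fun S => R S / 2 ^ j) with hF
  have hFρ : ∀ ρ, ∀ r ∈ F ρ, r / 2 ^ t = ρ := by
    intro ρ r hr
    obtain ⟨S, hS, rfl⟩ := mem_image.mp hr
    rw [Nat.div_div_eq_div_mul, ← pow_add]
    exact (mem_filter.mp hS).2.2
  set et : ℕ → ℕ → Fin (2 ^ t) → ℂ := fun _ r p =>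
    e ((((a * 2 ^ t : ℕ) : ℝ) + (p : ℕ)) * (((r % 2 ^ t : ℕ) : ℝ) / (2 ^ (t + b) : ℕ))) with het
  set E : ℕ → Ω → ℂ := fun r ω => e (((2 ^ j * r : ℕ) : ℝ) * Y ω / 2 ^ (j + (t + q) + b)) with hE
  set θ : ℕ → Ω → ℂ := fun ρ ω =>
    e (-(((2 ^ j * (2 ^ t * ρ) : ℕ) : ℝ) * Y ω / 2 ^ (j + (t + q) + b))) with hθ
  have h2pi := two_pi_div_le hb
  have hcell : ∀ ω, 0 < w ω → Y ω / 2 ^ q = a * 2 ^ t + (Pos ω : ℕ) := by
    intro ω hω
    have h1 := Nat.div_add_mod (Y ω / 2 ^ q) (2 ^ t)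
    rw [Nat.div_div_eq_div_mul, ← pow_add, add_comm q t, hY ω hω] at h1
    rw [hPos]
    simp only
    rw [mul_comm]
    exact h1.symm
  have happ : ∀ ρ, ∀ r ∈ F ρ, ∀ ω, 0 < w ω → ‖θ ρ ω * E r ω - et ρ r (Pos ω)‖ ≤ 1 / 8 := by
    intro ρ r hr ω hω
    have hr' := hFρ ρ r hr
    set k : ℝ := ((r % 2 ^ t : ℕ) : ℝ) with hk
    set c : ℝ := ((Y ω / 2 ^ q : ℕ) : ℝ) with hc
    set δ : ℝ := ((Y ω % 2 ^ q : ℕ) : ℝ) with hδ
    have h1 : (r : ℝ) = 2 ^ t * ρ + k := by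
      have := (Nat.div_add_mod r (2 ^ t)).symm
      rw [hr'] at this
      rw [hk]
      exact_mod_cast this
    have h2 : (Y ω : ℝ) = 2 ^ q * c + δ := by
      have := (Nat.div_add_mod (Y ω) (2 ^ q)).symm
      rw [hc, hδ]
      exact_mod_cast this
    have hc' : c = ((a * 2 ^ t : ℕ) : ℝ) + ((Pos ω : ℕ) : ℝ) := by
      rw [hc, hcell ω hω]; push_cast; ring
    have h3 : θ ρ ω * E r ω = et ρ r (Pos ω) * e (2 ^ j * k * δ / 2 ^ (j + (t + q) + b)) := by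
      rw [hθ, hE, het]
      simp only
      rw [← e_add, ← e_add, ← hc', ← hk]
      congr 1
      push_cast
      rw [h1, h2]
      have e1 : (2 : ℝ) ^ (j + (t + q) + b) = 2 ^ j * 2 ^ q * 2 ^ (t + b) := by
        rw [← pow_add, ← pow_add]; congr 1; omega
      rw [e1]
      field_simp
      ring
    rw [h3, show et ρ r (Pos ω) * e (2 ^ j * k * δ / 2 ^ (j + (t + q) + b)) - et ρ r (Pos ω)
      = et ρ r (Pos ω) * (e (2 ^ j * k * δ / 2 ^ (j + (t + q) + b)) - 1) by ring, norm_mul]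
    have h4 : ‖et ρ r (Pos ω)‖ = 1 := norm_e _
    rw [h4, one_mul]
    refine (norm_e_sub_one _).trans (le_trans ?_ h2pi)
    have hk0 : 0 ≤ k := by rw [hk]; positivity
    have hδ0 : 0 ≤ δ := by rw [hδ]; positivity
    have hk1 : k ≤ 2 ^ t := by rw [hk]; exact_mod_cast (Nat.mod_lt r (by positivity)).le
    have hδ1 : δ ≤ 2 ^ q := by rw [hδ]; exact_mod_cast (Nat.mod_lt (Y ω) (by positivity)).le
    have h5 : |2 ^ j * k * δ / 2 ^ (j + (t + q) + b)| ≤ 1 / 2 ^ b := by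
      rw [abs_of_nonneg (by positivity), div_le_div_iff₀ (by positivity) (by positivity), one_mul]
      calc 2 ^ j * k * δ * 2 ^ b ≤ 2 ^ j * 2 ^ t * 2 ^ q * 2 ^ b := by gcongr
        _ = 2 ^ (j + (t + q) + b) := by rw [← pow_add, ← pow_add, ← pow_add]; congr 1; omega
    calc 2 * π * |2 ^ j * k * δ / 2 ^ (j + (t + q) + b)| ≤ 2 * π * (1 / 2 ^ b) :=
          mul_le_mul_of_nonneg_left h5 (by positivity)
      _ = 2 * π / 2 ^ b := by ring
  have hBes : ∀ ρ, ∀ c : ℕ → ℂ,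
      ∑ p : Fin (2 ^ t), (2 ^ t : ℝ)⁻¹ * ‖∑ r ∈ F ρ, c r * et ρ r p‖ ^ 2
        ≤ 2 ^ b * ∑ r ∈ F ρ, ‖c r‖ ^ 2 := by
    intro ρ c
    have h1 := bessel (2 ^ (t + b)) (2 ^ t) (a * 2 ^ t)
      (Nat.pow_le_pow_right (by norm_num) (by omega)) (F ρ) (fun r => r % 2 ^ t)
      (fun r _ => lt_of_lt_of_le (Nat.mod_lt r (by positivity))
        (Nat.pow_le_pow_right (by norm_num) (by omega)))
      (fun r hr r' hr' h => by
        rw [← Nat.div_add_mod r (2 ^ t), ← Nat.div_add_mod r' (2 ^ t), hFρ ρ r hr,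
          hFρ ρ r' hr', h]) c
    rw [← mul_sum, ← Fin.sum_univ_eq_sum_range (fun p : ℕ => ‖∑ r ∈ F ρ, c r *
      e ((((a * 2 ^ t : ℕ) : ℝ) + (p : ℕ)) * (((r % 2 ^ t : ℕ) : ℝ) / (2 ^ (t + b) : ℕ)))‖ ^ 2)] at *
    have h2 : ((2 : ℝ) ^ t)⁻¹ * (((2 ^ (t + b) : ℕ) : ℝ) * ∑ r ∈ F ρ, ‖c r‖ ^ 2)
        = 2 ^ b * ∑ r ∈ F ρ, ‖c r‖ ^ 2 := by
      push_cast
      rw [pow_add]
      field_simp
    rw [← h2]
    exact mul_le_mul_of_nonneg_left h1 (by positivity)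
  have hMρ : ∀ ρ, log (F ρ).card ≤ M := by
    intro ρ
    rcases (F ρ).eq_empty_or_nonempty with h0 | h0
    · rw [h0]; simpa using hM0
    · refine le_trans (log_le_log (by exact_mod_cast h0.card_pos) ?_) hM
      have : F ρ ⊆ (univ.filter (fun S => 0 < PS S)).image (fun S => R S / 2 ^ j) := by
        refine image_subset_image fun S hS => ?_
        exact mem_filter.mpr ⟨mem_univ _, (mem_filter.mp hS).2.1⟩
      unfold suppCard
      exact_mod_cast card_le_card this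
  set ψ' : ΩS → Lb → ℂ := fun S l =>
    e (-(((R S % 2 ^ j : ℕ) : ℝ) * (a * 2 ^ (t + q)) / 2 ^ (j + (t + q) + b))) * ψ S l with hψ'
  have hψ1 : ∀ S l, ‖ψ' S l‖ ≤ 1 := by
    intro S l
    rw [hψ']
    simp only
    rw [norm_mul, norm_e, one_mul]
    exact hψ S l
  have hmain := t5 hPS (fun S => R S / 2 ^ j) (fun S => R S / 2 ^ (j + t)) hw Pos Lab
    (U := fun _ => (2 ^ t : ℝ)⁻¹) (fun _ => by positivity) (by simp) (fun _ _ => by positivity)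
    F (fun S hS => mem_image.mpr ⟨S, mem_filter.mpr ⟨mem_univ _, hS, rfl⟩, rfl⟩) E
    (fun _ _ => norm_e _) ψ' hψ1 θ (fun _ _ => norm_e _) et happ (B := 2 ^ b) (by positivity) hBes
    hM0 hMρ
  have hDj : Dj w Pos Lab (fun _ => (2 ^ t : ℝ)⁻¹)
      = ∑ ω, w ω * log (2 ^ t * (Pr w (fun ω => (Y ω / 2 ^ q, Lab ω)) (Y ω / 2 ^ q, Lab ω)
          / Pr w Lab (Lab ω))) := by
    unfold Dj
    refine sum_congr rfl fun ω _ => ?_
    rcases (hw.nonneg ω).eq_or_lt with h | h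
    · rw [← h]; simp
    · have e1 : Pr w (fun ω => (Pos ω, Lab ω)) (Pos ω, Lab ω)
          = Pr w (fun ω => (Y ω / 2 ^ q, Lab ω)) (Y ω / 2 ^ q, Lab ω) := by
        unfold Pr
        refine sum_congr rfl fun ω' _ => ?_
        rcases (hw.nonneg ω').eq_or_lt with h' | h'
        · rw [← h']; simp
        · have e2 : ((Pos ω', Lab ω') = (Pos ω, Lab ω))
              ↔ ((Y ω' / 2 ^ q, Lab ω') = (Y ω / 2 ^ q, Lab ω)) := by
            rw [Prod.mk.injEq, Prod.mk.injEq, hcell ω h, hcell ω' h', Fin.ext_iff]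
            constructor
            · rintro ⟨h1, h2⟩; exact ⟨by omega, h2⟩
            · rintro ⟨h1, h2⟩; exact ⟨by omega, h2⟩
          by_cases h3 : (Pos ω', Lab ω') = (Pos ω, Lab ω)
          · rw [if_pos h3, if_pos (e2.mp h3)]
          · rw [if_neg h3, if_neg (mt e2.mpr h3)]
      have hPL := (Pr_pos hw Lab h).ne'
      rw [e1]
      congr 2
      field_simp
  have hs : ∑ S, PS S * ∑ ω, w ω * ‖E (R S / 2 ^ j) ω - ψ' S (Lab ω)‖ ^ 2
      ≤ 2 * (∑ S, PS S * ∑ ω, w ω *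
          ‖e ((R S : ℝ) * Y ω / 2 ^ (j + (t + q) + b)) - ψ S (Lab ω)‖ ^ 2)
        + 2 * (2 * π / 2 ^ b) ^ 2 := by
    have h1 : ∀ S, ∑ ω, w ω * ‖E (R S / 2 ^ j) ω - ψ' S (Lab ω)‖ ^ 2
        ≤ 2 * (∑ ω, w ω * ‖e ((R S : ℝ) * Y ω / 2 ^ (j + (t + q) + b)) - ψ S (Lab ω)‖ ^ 2)
          + 2 * (2 * π / 2 ^ b) ^ 2 := by
      intro S
      calc ∑ ω, w ω * ‖E (R S / 2 ^ j) ω - ψ' S (Lab ω)‖ ^ 2
          ≤ ∑ ω, w ω * (2 * ‖e ((R S : ℝ) * Y ω / 2 ^ (j + (t + q) + b)) - ψ S (Lab ω)‖ ^ 2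
            + 2 * (2 * π / 2 ^ b) ^ 2) := by
            refine sum_le_sum fun ω _ => ?_
            rcases (hw.nonneg ω).eq_or_lt with h | h
            · rw [← h]; simp
            · refine mul_le_mul_of_nonneg_left ?_ h.le
              exact round_letter j (t + q) b (R S) (Y ω) a (hY ω h) (ψ S (Lab ω))
        _ = _ := by
            simp only [mul_add, sum_add_distrib]
            rw [← sum_mul, hw.sum, one_mul, mul_sum]
            congr 1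
            exact sum_congr rfl fun ω _ => by ring
    calc ∑ S, PS S * ∑ ω, w ω * ‖E (R S / 2 ^ j) ω - ψ' S (Lab ω)‖ ^ 2
        ≤ ∑ S, PS S * (2 * (∑ ω, w ω *
            ‖e ((R S : ℝ) * Y ω / 2 ^ (j + (t + q) + b)) - ψ S (Lab ω)‖ ^ 2)
          + 2 * (2 * π / 2 ^ b) ^ 2) :=
          sum_le_sum fun S _ => mul_le_mul_of_nonneg_left (h1 S) (hPS.nonneg S)
      _ = _ := by
          simp only [mul_add, sum_add_distrib]
          rw [← sum_mul, hPS.sum, one_mul, mul_sum]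
          congr 1
          exact sum_congr rfl fun S _ => by ring
  rw [hDj] at hmain
  refine hmain.trans ?_
  unfold t5err
  have := mul_le_mul_of_nonneg_left hs (show (0 : ℝ) ≤ 12 * M by positivity)
  linarith

end

end Vale.Agent.P091.T.H453
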