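import Vale.Agent.P091.T.H453.Level

/-!
P091, T5 (potential): the sum over the level sets of a law on letters.
-/

set_option autoImplicit false

namespace Vale.Agent.P091.T.H453

open Finset Real
open Vale.Agent.P065.Ent

noncomputable section

variable {Ω P Lb R : Type*} [Fintype Ω] [Fintype P]

/-- entropy inside a set of total mass `p` -/
theorem ent_le_card (T : Finset R) (pl : R → ℝ) (hpl : ∀ r ∈ T, 0 ≤ pl r) :
    ∑ r ∈ T, -(pl r * log (pl r))
      ≤ (∑ r ∈ T, pl r) * log T.card - (∑ r ∈ T, pl r) * log (∑ r ∈ T, pl r) := by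
  rcases T.eq_empty_or_nonempty with h | hT
  · subst h; simp
  set p := ∑ r ∈ T, pl r with hp
  have hTc : (0 : ℝ) < T.card := by exact_mod_cast hT.card_pos
  rcases (sum_nonneg hpl).eq_or_lt with h0 | h0
  · have hz : ∀ r ∈ T, pl r = 0 := (sum_eq_zero_iff_of_nonneg hpl).mp h0.symm
    have hp0 : p = 0 := by rw [hp]; exact h0.symm
    rw [hp0, zero_mul, zero_mul, sub_zero]
    refine le_of_eq (sum_eq_zero fun r hr => ?_)
    rw [hz r hr]; simp
  · have h0' : 0 < p := by rw [hp]; exact h0
    have key : ∀ r ∈ T, -(pl r * log (pl r)) ≤ pl r * log T.card - pl r * log p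
        + (p / T.card - pl r) := by
      intro r hr
      rcases (hpl r hr).eq_or_lt with h | h
      · rw [← h]; simp; positivity
      · have h1 := log_le_sub_one_of_pos (x := p / T.card / pl r) (by positivity)
        rw [log_div (by positivity) h.ne', log_div h0'.ne' hTc.ne'] at h1
        have h2 := mul_le_mul_of_nonneg_left h1 h.le
        have h3 : pl r * (p / T.card / pl r - 1) = p / T.card - pl r := by field_simp
        rw [h3] at h2
        linarith
    refine (sum_le_sum key).trans (le_of_eq ?_)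
    rw [sum_add_distrib, sum_sub_distrib, sum_sub_distrib, ← sum_mul, ← sum_mul, ← hp]
    simp only [sum_const, nsmul_eq_mul]
    field_simp
    ring

/-- entropy of at most `n` classes -/
theorem ent_classes (n : ℕ) (p : ℕ → ℝ) (hp : ∀ j ∈ range n, 0 ≤ p j)
    (hp1 : ∑ j ∈ range n, p j = 1) : ∑ j ∈ range n, -(p j * log (p j)) ≤ log n := by
  have := ent_le_card (range n) p hp
  rw [hp1] at this
  simpa using this

/-- T5 core: a law on letters which is coherent with the pair (group variable, label) has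
entropy at most the divergence of the position given the label. -/
theorem law_level {w : Ω → ℝ} (hw : IsProb w) (Pos : Ω → P) (Lab : Ω → Lb) {U : P → ℝ}
    (hU : ∀ p, 0 ≤ U p) (hU1 : ∑ p, U p ≤ 1) (hac : ∀ ω, 0 < w ω → 0 < U (Pos ω))
    (F : Finset R) (pl : R → ℝ) (hpl : ∀ r ∈ F, 0 ≤ pl r) (hpl1 : ∑ r ∈ F, pl r = 1)
    (e : R → Ω → ℂ) (he : ∀ r ω, ‖e r ω‖ = 1)
    (φ : R → Lb → ℂ) (hφ : ∀ r l, ‖φ r l‖ ≤ 1) (θ : Ω → ℂ) (hθ : ∀ ω, ‖θ ω‖ = 1)
    (et : R → P → ℂ) (happ : ∀ r ∈ F, ∀ ω, 0 < w ω → ‖θ ω * e r ω - et r (Pos ω)‖ ≤ 1 / 8)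
    {B : ℝ} (hB : 0 ≤ B)
    (hBes : ∀ c : R → ℂ, ∑ p, U p * ‖∑ r ∈ F, c r * et r p‖ ^ 2 ≤ B * ∑ r ∈ F, ‖c r‖ ^ 2)
    {M : ℝ} (hM0 : 0 ≤ M) (hM : log F.card ≤ M) :
    ∑ r ∈ F, -(pl r * log (pl r)) ≤ Dj w Pos Lab U
      + 12 * M * (∑ r ∈ F, pl r * ∑ ω, w ω * ‖e r ω - φ r (Lab ω)‖ ^ 2)
      + log (1 + B) + log (2 * M + 2) + log 8 + 1 := by
  classical
  set s : R → ℝ := fun r => ∑ ω, w ω * ‖e r ω - φ r (Lab ω)‖ ^ 2 with hs
  have hs0 : ∀ r, 0 ≤ s r := fun r => by
    rw [hs]; exact sum_nonneg fun ω _ => mul_nonneg (hw.nonneg ω) (by positivity)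
  have hplle : ∀ r ∈ F, pl r ≤ 1 := fun r hr => hpl1 ▸ single_le_sum hpl hr
  set J : ℕ := ⌈2 * M⌉₊ with hJ
  set lev : R → ℕ := fun r => if pl r = 0 then J else min ⌊-log (pl r)⌋₊ J with hlev
  set T : ℕ → Finset R := fun j => F.filter fun r => lev r = j with hTdef
  set p : ℕ → ℝ := fun j => ∑ r ∈ T j, pl r with hp
  have hmap : ∀ r ∈ F, lev r ∈ range (J + 1) := by
    intro r _
    rw [mem_range, hlev]
    simp only
    split_ifs
    · omega
    · have := min_le_right ⌊-log (pl r)⌋₊ J
      omega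
  have hsumT : ∀ f : R → ℝ, ∑ j ∈ range (J + 1), ∑ r ∈ T j, f r = ∑ r ∈ F, f r := fun f =>
    sum_fiberwise_of_maps_to hmap f
  have hTF : ∀ j, T j ⊆ F := fun j => filter_subset _ _
  have hp0 : ∀ j, 0 ≤ p j := fun j => sum_nonneg fun r hr => hpl r (hTF j hr)
  have hp1 : ∑ j ∈ range (J + 1), p j = 1 := by rw [← hpl1]; exact hsumT pl
  -- pointwise bounds in a level
  have hupper : ∀ j, ∀ r ∈ T j, pl r ≤ exp (-(j : ℝ)) := by
    intro j r hr
    obtain ⟨hrF, hrl⟩ := mem_filter.mp hr
    by_cases h0 : pl r = 0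
    · rw [h0]; positivity
    · have hpos : 0 < pl r := lt_of_le_of_ne (hpl r hrF) (Ne.symm h0)
      have h1 : (j : ℝ) ≤ -log (pl r) := by
        have h2 : lev r ≤ ⌊-log (pl r)⌋₊ := by
          rw [hlev]; simp only [h0, if_false]; exact min_le_left _ _
        have h3 : (⌊-log (pl r)⌋₊ : ℝ) ≤ -log (pl r) :=
          Nat.floor_le (by have := log_nonpos hpos.le (hplle r hrF); linarith)
        have h4 : ((lev r : ℕ) : ℝ) ≤ (⌊-log (pl r)⌋₊ : ℝ) := by exact_mod_cast h2
        rw [hrl] at h4
        linarith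
      rw [← exp_log hpos]
      exact exp_le_exp.mpr (by linarith)
  have hlower : ∀ j, j < J → ∀ r ∈ T j, exp (-(j : ℝ)) ≤ exp 1 * pl r := by
    intro j hj r hr
    obtain ⟨hrF, hrl⟩ := mem_filter.mp hr
    have h0 : pl r ≠ 0 := by
      intro h0
      rw [hlev] at hrl
      simp only [h0, if_true] at hrl
      omega
    have hpos : 0 < pl r := lt_of_le_of_ne (hpl r hrF) (Ne.symm h0)
    have h2 : ⌊-log (pl r)⌋₊ = j := by
      rw [hlev] at hrl
      simp only [h0, if_false] at hrl
      have := hrl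
      rcases min_choice ⌊-log (pl r)⌋₊ J with h | h <;> omega
    have h3 := Nat.lt_floor_add_one (-log (pl r))
    rw [h2] at h3
    calc exp (-(j : ℝ)) ≤ exp (1 + log (pl r)) := exp_le_exp.mpr (by linarith)
      _ = exp 1 * pl r := by rw [exp_add, exp_log hpos]
  set D' : ℝ := Dj w Pos Lab U + log (1 + B) + log 8 with hD'
  have hD0 : 0 ≤ D' := by
    have h1 := Dj_nonneg hw Pos Lab hU hU1 hac
    have h2 : 0 ≤ log (1 + B) := log_nonneg (by linarith)
    have h3 : 0 ≤ log 8 := log_nonneg (by norm_num)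
    linarith
  have hcardM : ∀ j, (T j).Nonempty → log (T j).card ≤ M := by
    intro j hj
    refine le_trans (log_le_log (by exact_mod_cast hj.card_pos) ?_) hM
    exact_mod_cast card_le_card (hTF j)
  -- the levels below `J`
  have hlevel : ∀ j ∈ range J, p j * log (T j).card
      ≤ p j * D' + 12 * M * ∑ r ∈ T j, pl r * s r := by
    intro j hj
    have hjJ := mem_range.mp hj
    rcases (T j).eq_empty_or_nonempty with hE | hN
    · have : p j = 0 := by rw [hp]; simp only [hE, sum_empty]
      rw [this, hE]; simp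
    have hTc : (0 : ℝ) < (T j).card := by exact_mod_cast hN.card_pos
    have hone := one_level hw Pos Lab hU hU1 hac (T j) hN e he φ hφ θ hθ et
      (fun r hr ω => happ r (hTF j hr) ω) hB (by
        intro c
        have h1 := hBes (fun r => if r ∈ T j then c r else 0)
        have h2 : ∀ q : P, ∑ r ∈ F, (if r ∈ T j then c r else 0) * et r q
            = ∑ r ∈ T j, c r * et r q := by
          intro q
          rw [← sum_filter_add_sum_filter_not F (fun r => r ∈ T j)]
          have h3 : F.filter (fun r => r ∈ T j) = T j := by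
            ext r; simp only [mem_filter]; exact ⟨fun h => h.2, fun h => ⟨hTF j h, h⟩⟩
          rw [h3]
          have h4 : ∑ r ∈ F.filter (fun r => r ∉ T j), (if r ∈ T j then c r else 0) * et r q = 0 :=
            sum_eq_zero fun r hr => by rw [if_neg (mem_filter.mp hr).2, zero_mul]
          rw [h4, add_zero]
          exact sum_congr rfl fun r hr => by rw [if_pos hr]
        have h5 : ∑ r ∈ F, ‖(if r ∈ T j then c r else 0)‖ ^ 2 = ∑ r ∈ T j, ‖c r‖ ^ 2 := by
          rw [← sum_filter_add_sum_filter_not F (fun r => r ∈ T j)]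
          have h3 : F.filter (fun r => r ∈ T j) = T j := by
            ext r; simp only [mem_filter]; exact ⟨fun h => h.2, fun h => ⟨hTF j h, h⟩⟩
          rw [h3]
          have h4 : ∑ r ∈ F.filter (fun r => r ∉ T j), ‖(if r ∈ T j then c r else 0)‖ ^ 2 = 0 :=
            sum_eq_zero fun r hr => by rw [if_neg (mem_filter.mp hr).2]; simp
          rw [h4, add_zero]
          exact sum_congr rfl fun r hr => by rw [if_pos hr]
        simp only [h2] at h1
        rw [h5] at h1
        exact h1)
    set S := ∑ r ∈ T j, ∑ ω, w ω * ‖e r ω - φ r (Lab ω)‖ ^ 2 with hS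
    have hS0 : 0 ≤ S := sum_nonneg fun r _ => hs0 r
    have hlog : log (T j).card ≤ D' + 4 * (S / (T j).card) * M := by
      have h1 := hcardM j hN
      have h2 : 4 * (S / (T j).card) * log (T j).card ≤ 4 * (S / (T j).card) * M :=
        mul_le_mul_of_nonneg_left h1 (by positivity)
      have h3 : (1 - 4 * (S / (T j).card)) * log (T j).card
          = log (T j).card - 4 * (S / (T j).card) * log (T j).card := by ring
      rw [h3] at hone
      linarith
    have hpS : p j * (S / (T j).card) ≤ exp 1 * ∑ r ∈ T j, pl r * s r := by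
      have h1 : p j ≤ (T j).card * exp (-(j : ℝ)) := by
        rw [hp]
        calc ∑ r ∈ T j, pl r ≤ ∑ r ∈ T j, exp (-(j : ℝ)) := sum_le_sum fun r hr => hupper j r hr
          _ = _ := by simp
      calc p j * (S / (T j).card) ≤ (T j).card * exp (-(j : ℝ)) * (S / (T j).card) :=
            mul_le_mul_of_nonneg_right h1 (by positivity)
        _ = exp (-(j : ℝ)) * S := by field_simp
        _ = ∑ r ∈ T j, exp (-(j : ℝ)) * s r := by rw [hS, mul_sum]
        _ ≤ ∑ r ∈ T j, exp 1 * pl r * s r := sum_le_sum fun r hr =>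
            mul_le_mul_of_nonneg_right (hlower j hjJ r hr) (hs0 r)
        _ = _ := by rw [mul_sum]; exact sum_congr rfl fun r _ => by ring
    have hX0 : 0 ≤ ∑ r ∈ T j, pl r * s r := sum_nonneg fun r hr =>
      mul_nonneg (hpl r (hTF j hr)) (hs0 r)
    have he3 : exp 1 ≤ 3 := by linarith [exp_one_lt_d9]
    calc p j * log (T j).card ≤ p j * (D' + 4 * (S / (T j).card) * M) :=
          mul_le_mul_of_nonneg_left hlog (hp0 j)
      _ = p j * D' + 4 * M * (p j * (S / (T j).card)) := by ring
      _ ≤ p j * D' + 4 * M * (exp 1 * ∑ r ∈ T j, pl r * s r) := by gcongr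
      _ ≤ p j * D' + 4 * M * (3 * ∑ r ∈ T j, pl r * s r) := by gcongr
      _ = _ := by ring
  -- the last level
  have hlast : p J * log (T J).card ≤ 1 := by
    rcases (T J).eq_empty_or_nonempty with hE | hN
    · rw [hE]; simp
    · have h1 := hcardM J hN
      have hFc : (F.card : ℝ) ≤ exp M := by
        have hF : F.Nonempty := hN.mono (hTF J)
        have : (0 : ℝ) < F.card := by exact_mod_cast hF.card_pos
        rw [← exp_log this]; exact exp_le_exp.mpr hM
      have h2 : p J ≤ exp (-M) := by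
        calc p J ≤ ∑ r ∈ T J, exp (-(J : ℝ)) := sum_le_sum fun r hr => hupper J r hr
          _ = (T J).card * exp (-(J : ℝ)) := by simp
          _ ≤ F.card * exp (-(J : ℝ)) := by
              gcongr; exact hTF J
          _ ≤ exp M * exp (-(2 * M)) := by
              gcongr
              exact Nat.le_ceil _
          _ = exp (-M) := by rw [← exp_add]; congr 1; ring
      calc p J * log (T J).card ≤ exp (-M) * M := by
            have h3 : 0 ≤ log ((T J).card : ℝ) := log_nonneg (by exact_mod_cast hN.card_pos)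
            exact mul_le_mul h2 h1 h3 (exp_pos _).le
        _ ≤ 1 := by
            rw [exp_neg, inv_mul_le_iff₀ (exp_pos _), mul_one]
            linarith [add_one_le_exp M]
  have hclass := ent_classes (J + 1) p (fun j _ => hp0 j) hp1
  have hJlog : log ((J + 1 : ℕ) : ℝ) ≤ log (2 * M + 2) := by
    refine log_le_log (by positivity) ?_
    push_cast
    have := Nat.ceil_lt_add_one (a := 2 * M) (by linarith)
    rw [← hJ] at this
    linarith
  calc ∑ r ∈ F, -(pl r * log (pl r)) = ∑ j ∈ range (J + 1), ∑ r ∈ T j, -(pl r * log (pl r)) :=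
        (hsumT _).symm
    _ ≤ ∑ j ∈ range (J + 1), (p j * log (T j).card - p j * log (p j)) :=
        sum_le_sum fun j _ => ent_le_card (T j) pl fun r hr => hpl r (hTF j hr)
    _ = ∑ j ∈ range (J + 1), p j * log (T j).card + ∑ j ∈ range (J + 1), -(p j * log (p j)) := by
        rw [← sum_add_distrib]; exact sum_congr rfl fun j _ => by ring
    _ ≤ (∑ j ∈ range J, (p j * D' + 12 * M * ∑ r ∈ T j, pl r * s r) + 1) + log (2 * M + 2) := by
        rw [sum_range_succ (fun j => p j * log (T j).card)]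
        have := sum_le_sum hlevel
        linarith
    _ ≤ (D' + 12 * M * ∑ r ∈ F, pl r * s r + 1) + log (2 * M + 2) := by
        have h1 : ∑ j ∈ range J, p j ≤ 1 := by
          rw [← hp1, sum_range_succ]; linarith [hp0 J]
        have h2 : ∑ j ∈ range J, ∑ r ∈ T j, pl r * s r ≤ ∑ r ∈ F, pl r * s r := by
          rw [← hsumT (fun r => pl r * s r), sum_range_succ]
          have : 0 ≤ ∑ r ∈ T J, pl r * s r := sum_nonneg fun r hr =>
            mul_nonneg (hpl r (hTF J hr)) (hs0 r)
          linarith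
        rw [sum_add_distrib, ← sum_mul, ← mul_sum]
        have h3 : (∑ j ∈ range J, p j) * D' ≤ D' := by nlinarith
        have h4 : 12 * M * ∑ j ∈ range J, ∑ r ∈ T j, pl r * s r
            ≤ 12 * M * ∑ r ∈ F, pl r * s r := mul_le_mul_of_nonneg_left h2 (by positivity)
        linarith
    _ = _ := by rw [hD']; ring

end

end Vale.Agent.P091.T.H453
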