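import Vale.Agent.P065.H587.Ent2

/-!
P091, T5 (potential), rows (H4), (H4-b), (H4-c) of the heart architecture: one labelled
Donsker-Varadhan level and the sum over the levels of a law on letters.
-/

set_option autoImplicit false

namespace Vale.Agent.P091.T.H453

open Finset Real
open Vale.Agent.P065.Ent

noncomputable section

variable {Ω P Lb R : Type*} [Fintype Ω] [Fintype P]

/-- divergence of the position given the label from the reference weight `U` -/
def Dj (w : Ω → ℝ) (Pos : Ω → P) (Lab : Ω → Lb) (U : P → ℝ) : ℝ :=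
  ∑ ω, w ω * log (Pr w (fun ω => (Pos ω, Lab ω)) (Pos ω, Lab ω) / (Pr w Lab (Lab ω) * U (Pos ω)))

/-- labelled Donsker-Varadhan inequality -/
theorem dv_lab {w : Ω → ℝ} (hw : IsProb w) (Pos : Ω → P) (Lab : Ω → Lb) {U : P → ℝ}
    (hU : ∀ p, 0 ≤ U p) (hU1 : ∑ p, U p ≤ 1) (hac : ∀ ω, 0 < w ω → 0 < U (Pos ω))
    (g : Lb → P → ℝ) (hg : ∀ l p, 0 ≤ g l p) {B : ℝ} (hB : 0 ≤ B)
    (hgB : ∀ l, ∑ p, U p * g l p ≤ B) :
    ∑ ω, w ω * log (1 + g (Lab ω) (Pos ω)) ≤ Dj w Pos Lab U + log (1 + B) := by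
  classical
  set PP : Lb × P → ℝ := fun q => Pr w (fun ω => (Pos ω, Lab ω)) (q.2, q.1) with hPP
  have hPr0 : ∀ ω, 0 < w ω → 0 < Pr w (fun ω => (Pos ω, Lab ω)) (Pos ω, Lab ω) := fun ω h =>
    Pr_pos hw (fun ω => (Pos ω, Lab ω)) h
  have hPl0 : ∀ ω, 0 < w ω → 0 < Pr w Lab (Lab ω) := fun ω h => Pr_pos hw Lab h
  have key : ∀ ω, w ω * log (1 + g (Lab ω) (Pos ω))
      - w ω * log (Pr w (fun ω => (Pos ω, Lab ω)) (Pos ω, Lab ω)
        / (Pr w Lab (Lab ω) * U (Pos ω))) - w ω * log (1 + B)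
      ≤ w ω * (Pr w Lab (Lab ω) * (U (Pos ω) * (1 + g (Lab ω) (Pos ω))) / (1 + B)
        / Pr w (fun ω => (Pos ω, Lab ω)) (Pos ω, Lab ω)) - w ω := by
    intro ω
    rcases (hw.nonneg ω).eq_or_lt with h | h
    · rw [← h]; simp
    · have h1 := hPr0 ω h
      have h2 := hPl0 ω h
      have h3 := hac ω h
      have h4 : 0 < 1 + g (Lab ω) (Pos ω) := by linarith [hg (Lab ω) (Pos ω)]
      have h5 : 0 < 1 + B := by linarith
      have h6 : log (1 + g (Lab ω) (Pos ω))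
          - log (Pr w (fun ω => (Pos ω, Lab ω)) (Pos ω, Lab ω) / (Pr w Lab (Lab ω) * U (Pos ω)))
          - log (1 + B)
          = log (Pr w Lab (Lab ω) * (U (Pos ω) * (1 + g (Lab ω) (Pos ω))) / (1 + B)
            / Pr w (fun ω => (Pos ω, Lab ω)) (Pos ω, Lab ω)) := by
        rw [log_div (by positivity) h1.ne', log_div (by positivity) h5.ne',
          log_mul h2.ne' (by positivity), log_mul h3.ne' h4.ne', log_div h1.ne' (by positivity),
          log_mul h2.ne' h3.ne']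
        ring
      have h7 := log_le_sub_one_of_pos (x := Pr w Lab (Lab ω) * (U (Pos ω)
        * (1 + g (Lab ω) (Pos ω))) / (1 + B)
            / Pr w (fun ω => (Pos ω, Lab ω)) (Pos ω, Lab ω)) (by positivity)
      have h8 : w ω * log (1 + g (Lab ω) (Pos ω))
          - w ω * log (Pr w (fun ω => (Pos ω, Lab ω)) (Pos ω, Lab ω)
            / (Pr w Lab (Lab ω) * U (Pos ω))) - w ω * log (1 + B)
          = w ω * log (Pr w Lab (Lab ω) * (U (Pos ω) * (1 + g (Lab ω) (Pos ω))) / (1 + B)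
            / Pr w (fun ω => (Pos ω, Lab ω)) (Pos ω, Lab ω)) := by
        rw [← h6]; ring
      rw [h8]
      have := mul_le_mul_of_nonneg_left h7 h.le
      linarith
  have hs := sum_le_sum (s := univ) (fun ω _ => key ω)
  simp only [sum_sub_distrib] at hs
  rw [hw.sum, ← sum_mul, hw.sum, one_mul] at hs
  -- the sum on the right is at most one
  have hR : ∑ ω, w ω * (Pr w Lab (Lab ω) * (U (Pos ω) * (1 + g (Lab ω) (Pos ω))) / (1 + B)
        / Pr w (fun ω => (Pos ω, Lab ω)) (Pos ω, Lab ω)) ≤ 1 := by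
    have e1 : ∀ ω, w ω * (Pr w Lab (Lab ω) * (U (Pos ω) * (1 + g (Lab ω) (Pos ω))) / (1 + B)
        / Pr w (fun ω => (Pos ω, Lab ω)) (Pos ω, Lab ω))
        = w ω * (fun q : P × Lb => Pr w Lab q.2 * (U q.1 * (1 + g q.2 q.1)) / (1 + B)
        / Pr w (fun ω => (Pos ω, Lab ω)) q) (Pos ω, Lab ω) := fun ω => rfl
    rw [sum_congr rfl fun ω _ => e1 ω,
      sum_fiber w (fun ω => (Pos ω, Lab ω)) (fun q : P × Lb => Pr w Lab q.2
        * (U q.1 * (1 + g q.2 q.1)) / (1 + B) / Pr w (fun ω => (Pos ω, Lab ω)) q)]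
    have e2 : ∀ q ∈ univ.image (fun ω => (Pos ω, Lab ω)),
        Pr w (fun ω => (Pos ω, Lab ω)) q * (Pr w Lab q.2 * (U q.1 * (1 + g q.2 q.1)) / (1 + B)
          / Pr w (fun ω => (Pos ω, Lab ω)) q)
        ≤ Pr w Lab q.2 * (U q.1 * (1 + g q.2 q.1)) / (1 + B) := by
      intro q _
      have hq := Pr_nonneg hw (fun ω => (Pos ω, Lab ω)) q
      have hr : 0 ≤ Pr w Lab q.2 * (U q.1 * (1 + g q.2 q.1)) / (1 + B) := by
        have := Pr_nonneg hw Lab q.2
        have := hU q.1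
        have := hg q.2 q.1
        positivity
      rcases hq.eq_or_lt with h | h
      · rw [← h, zero_mul]; exact hr
      · rw [mul_div_cancel₀ _ h.ne']
    refine (sum_le_sum e2).trans ?_
    have e3 : ∑ q ∈ univ.image (fun ω => (Pos ω, Lab ω)),
        Pr w Lab q.2 * (U q.1 * (1 + g q.2 q.1)) / (1 + B)
        ≤ ∑ q ∈ (univ : Finset P) ×ˢ (univ.image Lab),
        Pr w Lab q.2 * (U q.1 * (1 + g q.2 q.1)) / (1 + B) := by
      refine sum_le_sum_of_subset_of_nonneg ?_ ?_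
      · intro q hq
        obtain ⟨ω, _, rfl⟩ := mem_image.mp hq
        exact mem_product.mpr ⟨mem_univ _, mem_image_of_mem _ (mem_univ _)⟩
      · intro q _ _
        have := Pr_nonneg hw Lab q.2
        have := hU q.1
        have := hg q.2 q.1
        positivity
    refine e3.trans ?_
    rw [sum_product_right]
    have e4 : ∀ l ∈ univ.image Lab, ∑ p, Pr w Lab l * (U p * (1 + g l p)) / (1 + B)
        ≤ Pr w Lab l := by
      intro l _
      rw [← sum_div, ← mul_sum, div_le_iff₀ (by linarith)]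
      refine mul_le_mul_of_nonneg_left ?_ (Pr_nonneg hw Lab l)
      have : ∑ p, U p * (1 + g l p) = ∑ p, U p + ∑ p, U p * g l p := by
        rw [← sum_add_distrib]
        exact sum_congr rfl fun p _ => by ring
      rw [this]
      linarith [hgB l]
    exact (sum_le_sum e4).trans (le_of_eq (sum_Pr hw Lab))
  unfold Dj
  linarith

theorem Dj_nonneg {w : Ω → ℝ} (hw : IsProb w) (Pos : Ω → P) (Lab : Ω → Lb) {U : P → ℝ}
    (hU : ∀ p, 0 ≤ U p) (hU1 : ∑ p, U p ≤ 1) (hac : ∀ ω, 0 < w ω → 0 < U (Pos ω)) :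
    0 ≤ Dj w Pos Lab U := by
  have := dv_lab hw Pos Lab hU hU1 hac (fun _ _ => 0) (fun _ _ => le_rfl) (B := 0) le_rfl
    (fun _ => by simp)
  simpa using this

/-- one level set of letters -/
theorem one_level {w : Ω → ℝ} (hw : IsProb w) (Pos : Ω → P) (Lab : Ω → Lb) {U : P → ℝ}
    (hU : ∀ p, 0 ≤ U p) (hU1 : ∑ p, U p ≤ 1) (hac : ∀ ω, 0 < w ω → 0 < U (Pos ω))
    (T : Finset R) (hT : T.Nonempty) (e : R → Ω → ℂ) (he : ∀ r ω, ‖e r ω‖ = 1)
    (φ : R → Lb → ℂ) (hφ : ∀ r l, ‖φ r l‖ ≤ 1) (θ : Ω → ℂ) (hθ : ∀ ω, ‖θ ω‖ = 1)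
    (et : R → P → ℂ) (happ : ∀ r ∈ T, ∀ ω, 0 < w ω → ‖θ ω * e r ω - et r (Pos ω)‖ ≤ 1 / 8)
    {B : ℝ} (hB : 0 ≤ B)
    (hBes : ∀ c : R → ℂ, ∑ p, U p * ‖∑ r ∈ T, c r * et r p‖ ^ 2 ≤ B * ∑ r ∈ T, ‖c r‖ ^ 2) :
    (1 - 4 * ((∑ r ∈ T, ∑ ω, w ω * ‖e r ω - φ r (Lab ω)‖ ^ 2) / T.card)) * log T.card
      ≤ Dj w Pos Lab U + log (1 + B) + log 8 := by
  have hTc : (0 : ℝ) < T.card := by exact_mod_cast hT.card_pos
  have hT1 : (1 : ℝ) ≤ T.card := by exact_mod_cast hT.card_pos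
  set g : Lb → P → ℝ := fun l p =>
    ‖∑ r ∈ T, (starRingEnd ℂ) (φ r l) * et r p‖ ^ 2 / T.card with hg
  set q : Ω → ℝ := fun ω => (∑ r ∈ T, ‖e r ω - φ r (Lab ω)‖ ^ 2) / T.card with hq
  have hq0 : ∀ ω, 0 ≤ q ω := fun ω => by rw [hq]; positivity
  have hg0 : ∀ l p, 0 ≤ g l p := fun l p => by rw [hg]; positivity
  have hgs : ∀ l, ∑ p, U p * g l p ≤ B := by
    intro l
    have h1 := hBes (fun r => (starRingEnd ℂ) (φ r l))
    have h2 : ∑ r ∈ T, ‖(starRingEnd ℂ) (φ r l)‖ ^ 2 ≤ T.card := by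
      calc ∑ r ∈ T, ‖(starRingEnd ℂ) (φ r l)‖ ^ 2 ≤ ∑ r ∈ T, (1 : ℝ) := by
            refine sum_le_sum fun r _ => ?_
            rw [RCLike.norm_conj]
            exact pow_le_one₀ (norm_nonneg _) (hφ r l)
        _ = T.card := by simp
    have h3 : ∑ p, U p * g l p
        = (∑ p, U p * ‖∑ r ∈ T, (starRingEnd ℂ) (φ r l) * et r p‖ ^ 2) / T.card := by
      rw [sum_div]
      exact sum_congr rfl fun p _ => by rw [hg]; simp only; rw [mul_div_assoc]
    rw [h3, div_le_iff₀ hTc]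
    exact h1.trans (mul_le_mul_of_nonneg_left h2 hB)
  have h1 := dv_lab hw Pos Lab hU hU1 hac g hg0 hB hgs
  have hlogT : 0 ≤ log T.card := log_nonneg hT1
  have hpt : ∀ ω, 0 < w ω →
      (1 - 4 * q ω) * log T.card - log 8 ≤ log (1 + g (Lab ω) (Pos ω)) := by
    intro ω hwω
    rcases le_or_gt (q ω) (1 / 4) with hy | hy
    · have hone : ∀ r, ‖1 - (starRingEnd ℂ) (φ r (Lab ω)) * e r ω‖ = ‖e r ω - φ r (Lab ω)‖ := by
        intro r
        have h2 : (starRingEnd ℂ) (e r ω) * e r ω = 1 := by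
          rw [mul_comm, Complex.mul_conj']
          rw [he]; norm_num
        have h3 : 1 - (starRingEnd ℂ) (φ r (Lab ω)) * e r ω
            = (starRingEnd ℂ) (e r ω - φ r (Lab ω)) * e r ω := by
          rw [map_sub, sub_mul, h2]
        rw [h3, norm_mul, he, mul_one, RCLike.norm_conj]
      have hsum : ∑ r ∈ T, ‖1 - (starRingEnd ℂ) (φ r (Lab ω)) * e r ω‖ ≤ T.card / 2 := by
        have hcs := sq_sum_le_card_mul_sum_sq (s := T)
          (f := fun r => ‖1 - (starRingEnd ℂ) (φ r (Lab ω)) * e r ω‖)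
        have h2 : ∑ r ∈ T, ‖1 - (starRingEnd ℂ) (φ r (Lab ω)) * e r ω‖ ^ 2 ≤ T.card / 4 := by
          have := hy
          rw [hq] at this
          simp only at this
          rw [div_le_iff₀ hTc] at this
          simp only [hone]
          linarith
        have h3 : (∑ r ∈ T, ‖1 - (starRingEnd ℂ) (φ r (Lab ω)) * e r ω‖) ^ 2
            ≤ (T.card / 2 : ℝ) ^ 2 := by
          calc _ ≤ (T.card : ℝ) * ∑ r ∈ T, ‖1 - (starRingEnd ℂ) (φ r (Lab ω)) * e r ω‖ ^ 2 := hcs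
            _ ≤ (T.card : ℝ) * (T.card / 4) := by gcongr
            _ = (T.card / 2 : ℝ) ^ 2 := by ring
        exact abs_le_of_sq_le_sq' h3 (by positivity) |>.2
      have hlow : (T.card : ℝ) / 2 ≤ ‖∑ r ∈ T, (starRingEnd ℂ) (φ r (Lab ω)) * e r ω‖ := by
        have h4 : (T.card : ℂ) = ∑ r ∈ T, (starRingEnd ℂ) (φ r (Lab ω)) * e r ω
            + ∑ r ∈ T, (1 - (starRingEnd ℂ) (φ r (Lab ω)) * e r ω) := by
          rw [← sum_add_distrib]
          simp
        have h5 : (T.card : ℝ) ≤ ‖∑ r ∈ T, (starRingEnd ℂ) (φ r (Lab ω)) * e r ω‖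
            + ∑ r ∈ T, ‖1 - (starRingEnd ℂ) (φ r (Lab ω)) * e r ω‖ := by
          calc (T.card : ℝ) = ‖(T.card : ℂ)‖ := by simp
            _ ≤ _ := by
              rw [h4]
              exact (norm_add_le _ _).trans (by gcongr; exact norm_sum_le _ _)
        linarith
      have hlow2 : 3 * (T.card : ℝ) / 8
          ≤ ‖∑ r ∈ T, (starRingEnd ℂ) (φ r (Lab ω)) * et r (Pos ω)‖ := by
        have h6 : θ ω * ∑ r ∈ T, (starRingEnd ℂ) (φ r (Lab ω)) * e r ω
            = ∑ r ∈ T, (starRingEnd ℂ) (φ r (Lab ω)) * et r (Pos ω)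
              + ∑ r ∈ T, (starRingEnd ℂ) (φ r (Lab ω)) * (θ ω * e r ω - et r (Pos ω)) := by
          rw [mul_sum, ← sum_add_distrib]
          exact sum_congr rfl fun r _ => by ring
        have h7 : ‖∑ r ∈ T, (starRingEnd ℂ) (φ r (Lab ω)) * (θ ω * e r ω - et r (Pos ω))‖
            ≤ T.card / 8 := by
          calc _ ≤ ∑ r ∈ T, ‖(starRingEnd ℂ) (φ r (Lab ω)) * (θ ω * e r ω - et r (Pos ω))‖ :=
                norm_sum_le _ _
            _ ≤ ∑ r ∈ T, (1 / 8 : ℝ) := by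
                refine sum_le_sum fun r hr => ?_
                rw [norm_mul, RCLike.norm_conj]
                calc _ ≤ 1 * (1 / 8 : ℝ) := mul_le_mul (hφ r _) (happ r hr ω hwω) (norm_nonneg _)
                      (by norm_num)
                  _ = 1 / 8 := by ring
            _ = T.card / 8 := by simp [div_eq_mul_inv]
        have h8 : ‖∑ r ∈ T, (starRingEnd ℂ) (φ r (Lab ω)) * e r ω‖
            ≤ ‖∑ r ∈ T, (starRingEnd ℂ) (φ r (Lab ω)) * et r (Pos ω)‖ + T.card / 8 := by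
          calc _ = ‖θ ω * ∑ r ∈ T, (starRingEnd ℂ) (φ r (Lab ω)) * e r ω‖ := by
                rw [norm_mul, hθ, one_mul]
            _ ≤ _ := by
                rw [h6]
                exact (norm_add_le _ _).trans (by gcongr)
        linarith
      have hgl : (T.card : ℝ) / 8 ≤ g (Lab ω) (Pos ω) := by
        rw [hg]
        simp only
        rw [le_div_iff₀ hTc]
        calc (T.card : ℝ) / 8 * T.card ≤ (3 * T.card / 8 : ℝ) ^ 2 := by nlinarith
          _ ≤ _ := by gcongr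
      have h6 : log (T.card / 8) ≤ log (1 + g (Lab ω) (Pos ω)) :=
        log_le_log (by positivity) (by linarith)
      rw [log_div hTc.ne' (by norm_num)] at h6
      have h7 : (1 - 4 * q ω) * log T.card ≤ log T.card := by
        nlinarith [hq0 ω]
      linarith
    · have h8 : (1 - 4 * q ω) * log T.card ≤ 0 :=
        mul_nonpos_of_nonpos_of_nonneg (by linarith) hlogT
      have h9 : 0 ≤ log (1 + g (Lab ω) (Pos ω)) := log_nonneg (by linarith [hg0 (Lab ω) (Pos ω)])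
      have h10 : 0 ≤ log 8 := log_nonneg (by norm_num)
      linarith
  have h2 : ∑ ω, w ω * ((1 - 4 * q ω) * log T.card - log 8)
      ≤ ∑ ω, w ω * log (1 + g (Lab ω) (Pos ω)) := by
    refine sum_le_sum fun ω _ => ?_
    rcases (hw.nonneg ω).eq_or_lt with h | h
    · rw [← h]; simp
    · exact mul_le_mul_of_nonneg_left (hpt ω h) h.le
  have h3 : ∑ ω, w ω * ((1 - 4 * q ω) * log T.card - log 8)
      = (1 - 4 * ((∑ r ∈ T, ∑ ω, w ω * ‖e r ω - φ r (Lab ω)‖ ^ 2) / T.card)) * log T.card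
        - log 8 := by
    have e1 : ∑ ω, w ω * q ω
        = (∑ r ∈ T, ∑ ω, w ω * ‖e r ω - φ r (Lab ω)‖ ^ 2) / T.card := by
      rw [sum_comm, sum_div]
      refine sum_congr rfl fun ω _ => ?_
      rw [hq]
      simp only
      rw [← mul_sum, mul_div_assoc]
    have e2 : ∀ ω, w ω * ((1 - 4 * q ω) * log T.card - log 8)
        = (log T.card - log 8) * w ω - 4 * log T.card * (w ω * q ω) := by
      intro ω; ring
    simp only [e2]
    rw [sum_sub_distrib, ← mul_sum, ← mul_sum, hw.sum, e1]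
    ring
  rw [h3] at h2
  linarith

end

end Vale.Agent.P091.T.H453
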