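import Vale.Agent.P091.T.H453.Words

/-!
P091, T5 for a list of units (frozen definitions of `T/Defs.lean`).
-/

set_option autoImplicit false

namespace Vale.Agent.P091.T.H453

open Finset Real
open Vale.Agent.P065.Ent
open Vale.Agent.P091.T
open Vale.Agent.P091.Spec (e anc nd av)

noncomputable section

/-! ### characters -/

section char
variable {n b : ℕ}

theorem ch_add (x y : ZMod (2 ^ (n + b))) : ch n b (x + y) = ch n b x * ch n b y := by
  unfold ch; exact AddChar.map_add_eq_mul _ _ _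

theorem ch_zero : ch n b 0 = 1 := by unfold ch; exact AddChar.map_zero_eq_one _

theorem norm_ch (x : ZMod (2 ^ (n + b))) : ‖ch n b x‖ = 1 := by
  unfold ch; exact AddChar.norm_apply _ _

theorem ch_sum {K : Type*} (s : Finset K) (f : K → ZMod (2 ^ (n + b))) :
    ch n b (∑ k ∈ s, f k) = ∏ k ∈ s, ch n b (f k) := by
  classical
  induction s using Finset.induction_on with
  | empty => simp [ch_zero]
  | insert k s hk ih => rw [sum_insert hk, prod_insert hk, ch_add, ih]

theorem ch_nat (x : ℕ) : ch n b (x : ZMod (2 ^ (n + b))) = e ((x : ℝ) / 2 ^ (n + b)) := by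
  unfold ch e
  have h := ZMod.stdAddChar_coe (N := 2 ^ (n + b)) (x : ℤ)
  rw [Int.cast_natCast] at h
  rw [h]
  congr 1
  push_cast
  ring

theorem ch_mul (r y : ZMod (2 ^ (n + b))) :
    ch n b (r * y) = e ((r.val : ℝ) * y.val / 2 ^ (n + b)) := by
  have h : r * y = ((r.val * y.val : ℕ) : ZMod (2 ^ (n + b))) := by
    push_cast
    rw [ZMod.natCast_zmod_val, ZMod.natCast_zmod_val]
  rw [h, ch_nat]
  push_cast
  rfl

end char

/-! ### the law of `R_J` -/

section law
variable {n b : ℕ}

/-- laws of the increments of a list -/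
def PJ (J : List (Un n b)) (k : Fin J.length) : ZMod (2 ^ (n + b)) → ℝ := (J.get k).P

/-- laws of the noises of a list -/
def RJ (J : List (Un n b)) (k : Fin J.length) : ZMod (2 ^ (n + b)) → ℝ := (J.get k).ρ

/-- `R_J` as a function of the word -/
def wsum (J : List (Un n b)) (S : Fin J.length → ZMod (2 ^ (n + b))) : ZMod (2 ^ (n + b)) :=
  ∑ k, S k

theorem lawR_push (J : List (Un n b)) (g : ZMod (2 ^ (n + b)) → ℝ) :
    ∑ r, lawR J r * g r = ∑ S, wordLaw (PJ J) S * g (wsum J S) := by
  classical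
  induction J generalizing g with
  | nil =>
    simp only [lawR, ite_mul, one_mul, zero_mul, sum_ite_eq', mem_univ, if_true]
    simp [wordLaw, wsum]
  | cons k J ih =>
    have h1 : ∑ r, lawR (k :: J) r * g r = ∑ s, k.P s * ∑ r, lawR J r * g (r + s) := by
      simp only [lawR]
      calc ∑ r, (∑ s, k.P s * lawR J (r - s)) * g r
          = ∑ s, ∑ r, k.P s * lawR J (r - s) * g r := by
            rw [sum_comm]; exact sum_congr rfl fun r _ => sum_mul _ _ _
        _ = ∑ s, k.P s * ∑ r, lawR J (r - s) * g r := by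
            refine sum_congr rfl fun s _ => ?_
            rw [mul_sum]; exact sum_congr rfl fun r _ => by ring
        _ = _ := by
            refine sum_congr rfl fun s _ => ?_
            congr 1
            exact Fintype.sum_equiv (Equiv.subRight s) _ _ fun r => by simp
    rw [h1]
    have h2 : ∑ S, wordLaw (PJ (k :: J)) S * g (wsum (k :: J) S)
        = ∑ x : ZMod (2 ^ (n + b)) × (Fin J.length → ZMod (2 ^ (n + b))),
          k.P x.1 * (wordLaw (PJ J) x.2 * g (wsum J x.2 + x.1)) := by
      symm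
      refine Fintype.sum_equiv (Fin.consEquiv fun _ : Fin (J.length + 1) => ZMod (2 ^ (n + b)))
        _ _ fun x => ?_
      have e1 : wordLaw (PJ (k :: J)) (Fin.cons x.1 x.2) = k.P x.1 * wordLaw (PJ J) x.2 := by
        unfold wordLaw
        exact Fin.prod_univ_succ _
      have e2 : wsum (k :: J) (Fin.cons x.1 x.2) = x.1 + wsum J x.2 := by
        unfold wsum
        exact Fin.sum_univ_succ _
      show _ = wordLaw (PJ (k :: J)) (Fin.cons x.1 x.2) * g (wsum (k :: J) (Fin.cons x.1 x.2))
      rw [e1, e2, add_comm x.1]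
      ring
    rw [h2, Fintype.sum_prod_type]
    refine sum_congr rfl fun s _ => ?_
    rw [ih (fun r => g (r + s)), mul_sum]

theorem lawR_nonneg {J : List (Un n b)} (hJ : ∀ k ∈ J, IsProb k.P) (r : ZMod (2 ^ (n + b))) :
    0 ≤ lawR J r := by
  induction J generalizing r with
  | nil => simp only [lawR]; split_ifs <;> norm_num
  | cons k J ih =>
    simp only [lawR]
    refine sum_nonneg fun s _ => mul_nonneg ((hJ k (by simp)).nonneg s) ?_
    exact ih (fun k' hk' => hJ k' (List.mem_cons_of_mem _ hk')) _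

theorem PJ_isProb {J : List (Un n b)} (hJ : ∀ k ∈ J, IsProb k.P) (k : Fin J.length) :
    IsProb (PJ J k) := hJ _ (List.get_mem J k)

theorem lawR_isProb {J : List (Un n b)} (hJ : ∀ k ∈ J, IsProb k.P) : IsProb (lawR J) := by
  refine ⟨lawR_nonneg hJ, ?_⟩
  have h := lawR_push J (fun _ => 1)
  simp only [mul_one] at h
  rw [h]
  exact (wordLaw_isProb (PJ_isProb hJ)).sum

theorem Pr_lawR {β : Type*} (J : List (Un n b)) (f : ZMod (2 ^ (n + b)) → β) (x : β) :
    Pr (lawR J) f x = Pr (wordLaw (PJ J)) (fun S => f (wsum J S)) x := by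
  classical
  have h := lawR_push J (fun r => if f r = x then 1 else 0)
  simp only [mul_ite, mul_one, mul_zero] at h
  unfold Pr
  convert h using 1

theorem H_lawR {β : Type*} (J : List (Un n b)) (f : ZMod (2 ^ (n + b)) → β) :
    H (lawR J) f = H (wordLaw (PJ J)) (fun S => f (wsum J S)) := by
  unfold H
  rw [lawR_push J (fun r => -log (Pr (lawR J) f (f r)))]
  exact sum_congr rfl fun S _ => by rw [Pr_lawR]

/-- rounding of the word as a natural number -/
def rN (J : List (Un n b)) (S : Fin J.length → ZMod (2 ^ (n + b))) : ℕ := (wsum J S).val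

theorem rd_inj {j : ℕ} (hj : j ≤ n + b) (r r' : ZMod (2 ^ (n + b))) :
    rd n b j r = rd n b j r' ↔ r.val / 2 ^ j = r'.val / 2 ^ j := by
  unfold rd
  have h : ∀ r : ZMod (2 ^ (n + b)), r.val / 2 ^ j < 2 ^ (n + b - j) := by
    intro r
    rw [Nat.div_lt_iff_lt_mul (by positivity), ← pow_add, Nat.sub_add_cancel hj]
    exact ZMod.val_lt r
  constructor
  · intro h1
    have h2 := congrArg ZMod.val h1
    rwa [ZMod.val_natCast_of_lt (h r), ZMod.val_natCast_of_lt (h r')] at h2
  · intro h1; rw [h1]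

theorem F_eq (J : List (Un n b)) {j : ℕ} (hj : j ≤ n + b) :
    F J j = H (wordLaw (PJ J)) (fun S => rN J S / 2 ^ j) := by
  unfold F
  rw [H_lawR]
  exact H_congr (fun S S' h => (rd_inj hj _ _).mp h) (fun S S' h => (rd_inj hj _ _).mpr h)

theorem F_sub (J : List (Un n b)) {j t : ℕ} (hj : j + t ≤ n + b) :
    F J j - F J (j + t)
      = Hc (wordLaw (PJ J)) (fun S => rN J S / 2 ^ j) (fun S => rN J S / 2 ^ (j + t)) := by
  rw [F_eq J (by omega), F_eq J hj]
  have hdet : Det (fun S => rN J S / 2 ^ j) (fun S => rN J S / 2 ^ (j + t)) := by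
    intro S S' h
    simp only at h ⊢
    rw [pow_add, ← Nat.div_div_eq_div_mul, ← Nat.div_div_eq_div_mul, h]
  rw [Hc_eq (X' := fun S => rN J S / 2 ^ j) (Det.refl _) hdet (det_fst _ _)]

theorem suppCard_le (J : List (Un n b)) {D : ℝ}
    (hs : ∀ k ∈ J, ((univ.filter fun r => k.P r ≠ 0).card : ℝ) ≤ rexp (16 * D)) (j : ℕ) :
    (suppCard (wordLaw (PJ J)) (rN J) j : ℝ) ≤ rexp (16 * D) ^ J.length := by
  classical
  have h1 : suppCard (wordLaw (PJ J)) (rN J) j
      ≤ (Fintype.piFinset fun k => univ.filter fun r => PJ J k r ≠ 0).card := by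
    unfold suppCard
    refine card_image_le.trans (card_le_card fun S hS => ?_)
    rw [mem_filter] at hS
    rw [Fintype.mem_piFinset]
    intro k
    refine mem_filter.mpr ⟨mem_univ _, fun h => ?_⟩
    have : wordLaw (PJ J) S = 0 := prod_eq_zero (mem_univ k) h
    rw [this] at hS
    exact lt_irrefl _ hS.2
  rw [Fintype.card_piFinset] at h1
  calc (suppCard (wordLaw (PJ J)) (rN J) j : ℝ)
      ≤ ((∏ k, (univ.filter fun r => PJ J k r ≠ 0).card : ℕ) : ℝ) := by exact_mod_cast h1
    _ = ∏ k, ((univ.filter fun r => PJ J k r ≠ 0).card : ℝ) := by push_cast; rfl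
    _ ≤ ∏ _k : Fin J.length, rexp (16 * D) :=
        prod_le_prod (fun _ _ => by positivity) fun k _ => hs _ (List.get_mem J k)
    _ = _ := by simp

/-- **unit estimate**: coherence of the letters with the values, for every law of the point -/
theorem coherence {lam : ZMod (2 ^ (n + b)) → ℝ} (hlam : IsProb lam) (J : List (Un n b))
    (hP : ∀ k ∈ J, IsProb k.P) (hρ : ∀ k ∈ J, IsProb k.ρ) {ε : ℝ}
    (hcoh : ∀ k ∈ J, ∑ r, ∑ t, k.P r * k.ρ t * ‖1 - ch n b (r * t)‖ ^ 2 ≤ ε) :
    ∑ S, wordLaw (PJ J) S * ∑ w, muK lam (RJ J) w *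
      ‖e ((rN J S : ℝ) * (w.1.val : ℕ) / 2 ^ (n + b)) - ∏ k, ch n b (S k * val w k)‖ ^ 2
      ≤ (J.length : ℝ) * (J.length * ε) := by
  classical
  have hRJ : ∀ k, IsProb (RJ J k) := fun k => hρ _ (List.get_mem J k)
  have hPJ := PJ_isProb hP
  have h1 : ∀ S w, ‖e ((rN J S : ℝ) * ((w : _ × (Fin J.length → ZMod (2 ^ (n + b)))).1.val : ℕ)
      / 2 ^ (n + b)) - ∏ k, ch n b (S k * val w k)‖ ^ 2
      ≤ J.length * ∑ k, ‖1 - ch n b (S k * w.2 k)‖ ^ 2 := by
    intro S w
    have e1 : e ((rN J S : ℝ) * (w.1.val : ℕ) / 2 ^ (n + b)) = ∏ k, ch n b (S k * w.1) := by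
      unfold rN
      rw [← ch_mul, wsum, sum_mul, ch_sum]
    have e2 : ∏ k, ch n b (S k * val w k) = (∏ k, ch n b (S k * w.1)) * ∏ k, ch n b (S k * w.2 k) := by
      rw [← prod_mul_distrib]
      refine prod_congr rfl fun k _ => ?_
      unfold val
      rw [mul_add, ch_add]
    have e3 : ‖∏ k, ch n b (S k * w.1)‖ = 1 := by
      rw [norm_prod]; exact prod_eq_one fun k _ => norm_ch _
    rw [e1, e2, show (∏ k, ch n b (S k * w.1)) - (∏ k, ch n b (S k * w.1))
      * ∏ k, ch n b (S k * w.2 k) = (∏ k, ch n b (S k * w.1)) * (1 - ∏ k, ch n b (S k * w.2 k)) by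
        ring, norm_mul, e3, one_mul]
    have := norm_prod_sub_one_sq (fun k => ch n b (S k * w.2 k)) (fun k => norm_ch _)
    simpa using this
  have hW := wordLaw_isProb hPJ
  have hmu := muK_isProb hlam hRJ
  calc ∑ S, wordLaw (PJ J) S * ∑ w, muK lam (RJ J) w *
      ‖e ((rN J S : ℝ) * (w.1.val : ℕ) / 2 ^ (n + b)) - ∏ k, ch n b (S k * val w k)‖ ^ 2
      ≤ ∑ S, wordLaw (PJ J) S * ∑ w, muK lam (RJ J) w *
        (J.length * ∑ k, ‖1 - ch n b (S k * w.2 k)‖ ^ 2) := by
        refine sum_le_sum fun S _ => mul_le_mul_of_nonneg_left ?_ (hW.nonneg S)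
        exact sum_le_sum fun w _ => mul_le_mul_of_nonneg_left (h1 S w) (hmu.nonneg w)
    _ = J.length * ∑ k, ∑ S, wordLaw (PJ J) S * ∑ w, muK lam (RJ J) w *
          ‖1 - ch n b (S k * w.2 k)‖ ^ 2 := by
        simp only [mul_sum]
        rw [sum_comm (s := univ (α := Fin J.length))]
        refine sum_congr rfl fun S _ => ?_
        rw [sum_comm]
        refine sum_congr rfl fun k _ => sum_congr rfl fun w _ => by ring
    _ ≤ J.length * (J.length * ε) := by
        refine mul_le_mul_of_nonneg_left ?_ (by positivity)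
        calc ∑ k, ∑ S, wordLaw (PJ J) S * ∑ w, muK lam (RJ J) w * ‖1 - ch n b (S k * w.2 k)‖ ^ 2
            ≤ ∑ _k : Fin J.length, ε := by
              refine sum_le_sum fun k _ => ?_
              have e1 := wordLaw_marg hPJ k (fun s => ∑ w, muK lam (RJ J) w *
                ‖1 - ch n b (s * w.2 k)‖ ^ 2)
              rw [e1]
              have e2 : ∀ s, ∑ w, muK lam (RJ J) w * ‖1 - ch n b (s * w.2 k)‖ ^ 2
                  = ∑ t, RJ J k t * ‖1 - ch n b (s * t)‖ ^ 2 := by
                intro s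
                rw [muK_marg hRJ k (fun _ t => ‖1 - ch n b (s * t)‖ ^ 2),
                  sum_prw lam (RJ J k) (fun _ t => ‖1 - ch n b (s * t)‖ ^ 2), ← sum_mul,
                  hlam.sum, one_mul]
              rw [sum_congr rfl fun s _ => by rw [e2 s]]
              refine le_trans (le_of_eq ?_) (hcoh _ (List.get_mem J k))
              refine sum_congr rfl fun s _ => ?_
              rw [mul_sum]
              exact sum_congr rfl fun t _ => by unfold PJ RJ; ring
          _ = J.length * ε := by simp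

end law

end

end Vale.Agent.P091.T.H453
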