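import Vale.Agent.P091.T.H453.HullL

/-!
P091, T5: the parameters.
-/

set_option autoImplicit false

namespace Vale.Agent.P091.T.H453

open Finset Real Filter Asymptotics
open Vale.Agent.P091.T

noncomputable section

theorem bb_log {D : ℝ} (hD : 1 ≤ D) :
    4 * log D ≤ bb D * log 2 ∧ (bb D : ℝ) * log 2 ≤ 4 * log D + log 2 := by
  have h2 : 0 < log 2 := log_pos (by norm_num)
  have h0 : 0 ≤ logb 2 D := logb_nonneg (by norm_num) hD
  have h1 : logb 2 D * log 2 = log D := by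
    unfold logb; field_simp
  unfold bb
  constructor
  · have := Nat.le_ceil (4 * logb 2 D)
    have := mul_le_mul_of_nonneg_right this h2.le
    linarith
  · have := (Nat.ceil_lt_add_one (a := 4 * logb 2 D) (by positivity)).le
    have := mul_le_mul_of_nonneg_right this h2.le
    linarith

theorem two_pow_bb {D : ℝ} (hD : 1 ≤ D) : D ≤ (2 : ℝ) ^ bb D := by
  have h1 := (bb_log hD).1
  have h2 : log D ≤ log ((2 : ℝ) ^ bb D) := by
    rw [log_pow]
    have := log_nonneg hD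
    linarith
  exact (log_le_log_iff (by linarith) (by positivity)).mp h2

theorem six_le_bb {D : ℝ} (hD : 4 ≤ D) : 6 ≤ bb D := by
  have h2 : 0 < log 2 := log_pos (by norm_num)
  have h1 := (bb_log (by linarith : (1 : ℝ) ≤ D)).1
  have h3 : log 4 ≤ log D := log_le_log (by norm_num) hD
  have h4 : log 4 = 2 * log 2 := by
    rw [show (4 : ℝ) = 2 ^ 2 by norm_num, log_pow]; push_cast; ring
  have h5 : (8 : ℝ) * log 2 ≤ bb D * log 2 := by linarith
  have h6 : (8 : ℝ) ≤ bb D := le_of_mul_le_mul_right h5 h2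
  have h7 : 8 ≤ bb D := by exact_mod_cast h6
  omega

theorem one_le_ll (D : ℝ) : (1 : ℝ) ≤ ll D := by
  unfold ll; push_cast; have : (0 : ℝ) ≤ (⌈2 * logb 2 (log D)⌉₊ : ℝ) := by positivity
  linarith

/-- `l ≤ 9 log log D` -/
theorem ll_le : ∀ᶠ D : ℝ in atTop, (ll D : ℝ) ≤ 9 * log (log D) := by
  have h1 : ∀ᶠ D : ℝ in atTop, 1 ≤ log (log D) :=
    (tendsto_log_atTop.comp tendsto_log_atTop).eventually_ge_atTop 1
  filter_upwards [h1] with D hD
  have h2 : 0.6931471803 < log 2 := log_two_gt_d9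
  have h3 : 0 ≤ logb 2 (log D) := by
    unfold logb; exact div_nonneg (by linarith) (by linarith)
  have h4 := (Nat.ceil_lt_add_one (a := 2 * logb 2 (log D)) (by positivity)).le
  have h5 : logb 2 (log D) ≤ 2 * log (log D) := by
    unfold logb
    rw [div_le_iff₀ (by linarith)]
    nlinarith
  unfold ll
  push_cast
  linarith

theorem ll_le' : ∀ᶠ D : ℝ in atTop, (ll D : ℝ) ≤ 9 * log D := by
  filter_upwards [ll_le, eventually_ge_atTop (rexp 1)] with D h1 h2
  have h3 : 1 ≤ log D := by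
    rw [← log_exp 1]; exact log_le_log (exp_pos 1) h2
  have h4 : log (log D) ≤ log D := (log_le_sub_one_of_pos (by linarith)).trans (by linarith)
  linarith

/-- powers of `l` are beaten by every power of `log D` -/
theorem ll_ep (K : ℕ) {c : ℝ} (hc : 0 < c) (C : ℝ) (hC : 0 < C) :
    ∀ᶠ D : ℝ in atTop, (ll D : ℝ) ^ K * ep c D ≤ C := by
  have h1 : (fun x : ℝ => log x ^ (K : ℝ)) =o[atTop] fun x => x ^ c :=
    isLittleO_log_rpow_rpow_atTop (K : ℝ) hc
  have h2 := h1.def (show 0 < C / 9 ^ K by positivity)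
  have h3 : ∀ᶠ D : ℝ in atTop, ‖log (log D) ^ (K : ℝ)‖ ≤ C / 9 ^ K * ‖(log D) ^ c‖ :=
    tendsto_log_atTop.eventually h2
  have h4 : ∀ᶠ D : ℝ in atTop, 1 ≤ log (log D) :=
    (tendsto_log_atTop.comp tendsto_log_atTop).eventually_ge_atTop 1
  filter_upwards [h3, h4, ll_le, tendsto_log_atTop.eventually_ge_atTop 1] with D h3 h4 h5 h6
  rw [rpow_natCast, norm_of_nonneg (by positivity), norm_of_nonneg (by positivity)] at h3
  unfold ep
  have hx : 0 < (log D) ^ c := rpow_pos_of_pos (by linarith) _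
  rw [rpow_neg (by linarith), ← div_eq_mul_inv, div_le_iff₀ hx]
  calc (ll D : ℝ) ^ K ≤ (9 * log (log D)) ^ K := by gcongr
    _ = 9 ^ K * log (log D) ^ K := mul_pow _ _ _
    _ ≤ 9 ^ K * (C / 9 ^ K * (log D) ^ c) := by gcongr
    _ = C * (log D) ^ c := by field_simp

/-- powers of `l` and of `log D` are beaten by `D` -/
theorem ll_log (K m : ℕ) (C : ℝ) (hC : 0 < C) :
    ∀ᶠ D : ℝ in atTop, (ll D : ℝ) ^ K * log D ^ m ≤ C * D := by
  have h1 : (fun x : ℝ => log x ^ (K + m)) =o[atTop] id := isLittleO_pow_log_id_atTop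
  have h2 := h1.def (show 0 < C / 9 ^ K by positivity)
  filter_upwards [h2, ll_le', tendsto_log_atTop.eventually_ge_atTop 1,
    eventually_ge_atTop (1 : ℝ)] with D h2 h5 h6 h7
  rw [norm_of_nonneg (by positivity), id, norm_of_nonneg (by positivity)] at h2
  calc (ll D : ℝ) ^ K * log D ^ m ≤ (9 * log D) ^ K * log D ^ m := by gcongr
    _ = 9 ^ K * log D ^ (K + m) := by rw [mul_pow, pow_add]; ring
    _ ≤ 9 ^ K * (C / 9 ^ K * D) := by gcongr
    _ = C * D := by field_simp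

/-- **the error of T5 is negligible** -/
theorem err_small (K : ℕ) {c : ℝ} (hc : 0 < c) : ∀ᶠ D : ℝ in atTop, ∀ m : ℕ, m ≤ qm D →
    (m : ℝ) * (ep c D * D) + bb D * log 2 + t5err (bb D) (16 * D * m) (m * (m * ep c D))
      ≤ D / (ll D : ℝ) ^ K := by
  filter_upwards [ll_ep (12 + K) hc (1 / 770) (by norm_num),
    ll_log (4 + K) 1 (1 / 40000) (by norm_num), eventually_ge_atTop (rexp 1),
    eventually_ge_atTop (4 : ℝ)] with D h1 h2 h3 h4 m hm
  set l : ℝ := (ll D : ℝ) with hl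
  set x : ℝ := log D with hx
  set ε : ℝ := ep c D with hε
  have hl1 : 1 ≤ l := one_le_ll D
  have hx1 : 1 ≤ x := by
    rw [hx, ← log_exp 1]; exact log_le_log (exp_pos 1) h3
  have hε0 : 0 ≤ ε := by rw [hε]; unfold ep; exact rpow_nonneg (by linarith) _
  have hm' : (m : ℝ) ≤ l ^ 4 := by
    have : m ≤ ll D ^ 4 := hm
    rw [hl]; exact_mod_cast this
  have hD0 : (0 : ℝ) < D := by linarith
  obtain ⟨hb1, hb2⟩ := bb_log (by linarith : (1 : ℝ) ≤ D)
  have hlog2 : log 2 ≤ 1 := by have := log_two_lt_d9; linarith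
  have hlog20 : 0 < log 2 := log_pos (by norm_num)
  have h2b := two_pow_bb (by linarith : (1 : ℝ) ≤ D)
  have h2b0 : (0 : ℝ) < 2 ^ bb D := by positivity
  -- the terms with `ε`
  have hT1 : (m : ℝ) * (ε * D) ≤ l ^ 12 * ε * D := by
    have : (m : ℝ) ≤ l ^ 12 := hm'.trans (pow_le_pow_right₀ hl1 (by norm_num))
    calc (m : ℝ) * (ε * D) ≤ l ^ 12 * (ε * D) := by gcongr
      _ = _ := by ring
  have hT3 : 12 * (16 * D * m) * (2 * (m * (m * ε))) ≤ 384 * (l ^ 12 * ε * D) := by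
    have : (m : ℝ) ^ 3 ≤ l ^ 12 := by
      calc (m : ℝ) ^ 3 ≤ (l ^ 4) ^ 3 := by gcongr
        _ = l ^ 12 := by ring
    calc 12 * (16 * D * m) * (2 * (m * (m * ε))) = 384 * ((m : ℝ) ^ 3 * ε * D) := by ring
      _ ≤ 384 * (l ^ 12 * ε * D) := by gcongr
  have hE : 385 * (l ^ 12 * ε * D) ≤ D / l ^ K / 2 := by
    rw [div_div, le_div_iff₀ (by positivity)]
    have : l ^ (12 + K) * ε * D ≤ 1 / 770 * D := by gcongr
    calc 385 * (l ^ 12 * ε * D) * (l ^ K * 2) = 770 * (l ^ (12 + K) * ε * D) := by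
          rw [pow_add]; ring
      _ ≤ 770 * (1 / 770 * D) := by gcongr
      _ = D := by ring
  -- the other terms
  have hpi := pi_lt_d2
  have hpi0 := pi_pos
  have hT4 : 12 * (16 * D * m) * (2 * (2 * π / 2 ^ bb D) ^ 2) ≤ 16384 * l ^ 4 := by
    have e1 : (2 * π / 2 ^ bb D) ^ 2 ≤ 40 / D := by
      rw [div_pow, div_le_div_iff₀ (by positivity) hD0]
      have e2 : (2 * π) ^ 2 ≤ 40 := by nlinarith
      calc (2 * π) ^ 2 * D ≤ 40 * D := by gcongr
        _ ≤ 40 * (2 ^ bb D) ^ 2 := by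
          have : D ≤ (2 ^ bb D) ^ 2 := by nlinarith
          linarith
    calc 12 * (16 * D * m) * (2 * (2 * π / 2 ^ bb D) ^ 2)
        ≤ 12 * (16 * D * l ^ 4) * (2 * (40 / D)) := by gcongr
      _ = 15360 * l ^ 4 := by field_simp; ring
      _ ≤ 16384 * l ^ 4 := by nlinarith [show (0 : ℝ) ≤ l ^ 4 by positivity]
  have hT5 : log (1 + 2 ^ bb D) ≤ 4 * x + 2 := by
    have e1 : (1 : ℝ) + 2 ^ bb D ≤ 2 * 2 ^ bb D := by linarith
    have e2 := log_le_log (by positivity) e1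
    rw [log_mul (by norm_num) h2b0.ne', log_pow] at e2
    linarith
  have hT6 : log (2 * (16 * D * m) + 2) ≤ 36 + x + 4 * l := by
    have e1 : 2 * (16 * D * m) + 2 ≤ 34 * D * l ^ 4 := by
      have e2 : (1 : ℝ) ≤ l ^ 4 := one_le_pow₀ hl1
      have e3 : D * m ≤ D * l ^ 4 := by gcongr
      nlinarith
    have e4 := log_le_log (by positivity) e1
    rw [log_mul (by positivity) (by positivity), log_mul (by norm_num) hD0.ne', log_pow] at e4
    have e5 := log_le_sub_one_of_pos (show (0 : ℝ) < 34 by norm_num)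
    have e6 := log_le_sub_one_of_pos (show 0 < l by linarith)
    push_cast at e4
    linarith
  have hlog8 : log 8 ≤ 3 := by
    rw [show (8 : ℝ) = 2 ^ 3 by norm_num, log_pow]; push_cast; linarith
  have hrest : 12 * (16 * D * m) * (2 * (2 * π / 2 ^ bb D) ^ 2) + bb D * log 2
      + log (1 + 2 ^ bb D) + log (2 * (16 * D * m) + 2) + log 8 + 1 ≤ 20000 * (l ^ 4 * x) := by
    have e1 : (1 : ℝ) ≤ l ^ 4 := one_le_pow₀ hl1
    have e2 : l ≤ l ^ 4 := le_self_pow₀ hl1 (by norm_num)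
    have e3 : l ^ 4 ≤ l ^ 4 * x := le_mul_of_one_le_right (by positivity) hx1
    have e4 : x ≤ l ^ 4 * x := le_mul_of_one_le_left (by linarith) e1
    linarith
  have hR : 20000 * (l ^ 4 * x) ≤ D / l ^ K / 2 := by
    rw [div_div, le_div_iff₀ (by positivity)]
    have : l ^ (4 + K) * x ^ 1 ≤ 1 / 40000 * D := h2
    calc 20000 * (l ^ 4 * x) * (l ^ K * 2) = 40000 * (l ^ (4 + K) * x ^ 1) := by
          rw [pow_add]; ring
      _ ≤ 40000 * (1 / 40000 * D) := by gcongr
      _ = D := by ring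
  unfold t5err
  linarith

end

end Vale.Agent.P091.T.H453
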