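import Vale.Agent.P091.T.H453.LawLevel

/-!
P091, T5 (potential): conditional entropy of a fine rounding given a coarse rounding is bounded by
the divergence of the position given the labels, when the letters are coherent with the labels.
-/

set_option autoImplicit false

namespace Vale.Agent.P091.T.H453

open Finset Real
open Vale.Agent.P065.Ent

noncomputable section

/-- a weighted mean of vectors of norm at most one, Jensen for the square -/
theorem mean_sq {ι : Type*} (s : Finset ι) (q : ι → ℝ) (hq : ∀ i ∈ s, 0 ≤ q i) (z : ℂ)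
    (v : ι → ℂ) :
    (∑ i ∈ s, q i) * ‖z - (∑ i ∈ s, (q i : ℂ) * v i) / ((∑ i ∈ s, q i : ℝ) : ℂ)‖ ^ 2
      ≤ ∑ i ∈ s, q i * ‖z - v i‖ ^ 2 := by
  set Q := ∑ i ∈ s, q i with hQ
  have hQ0 : 0 ≤ Q := sum_nonneg hq
  rcases hQ0.eq_or_lt with h | h
  · rw [← h, zero_mul]
    exact sum_nonneg fun i hi => mul_nonneg (hq i hi) (by positivity)
  · have hQc : (Q : ℂ) ≠ 0 := by exact_mod_cast h.ne'
    have h1 : z - (∑ i ∈ s, (q i : ℂ) * v i) / (Q : ℂ)
        = (∑ i ∈ s, (q i : ℂ) * (z - v i)) / (Q : ℂ) := by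
      rw [eq_div_iff hQc, sub_mul, div_mul_cancel₀ _ hQc]
      simp only [mul_sub, sum_sub_distrib, ← sum_mul]
      rw [hQ]
      push_cast
      ring
    rw [h1, norm_div, div_pow, Complex.norm_real, Real.norm_eq_abs, sq_abs]
    have h2 : ‖∑ i ∈ s, (q i : ℂ) * (z - v i)‖ ≤ ∑ i ∈ s, q i * ‖z - v i‖ := by
      refine (norm_sum_le _ _).trans (le_of_eq (sum_congr rfl fun i hi => ?_))
      rw [norm_mul, Complex.norm_real, Real.norm_eq_abs, abs_of_nonneg (hq i hi)]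
    have h3 : (∑ i ∈ s, q i * ‖z - v i‖) ^ 2 ≤ Q * ∑ i ∈ s, q i * ‖z - v i‖ ^ 2 := by
      refine sum_sq_le_sum_mul_sum_of_sq_le_mul s hq
        (fun i hi => mul_nonneg (hq i hi) (by positivity)) (fun i _ => le_of_eq (by ring))
    have h4 : ‖∑ i ∈ s, (q i : ℂ) * (z - v i)‖ ^ 2 ≤ Q * ∑ i ∈ s, q i * ‖z - v i‖ ^ 2 :=
      (pow_le_pow_left₀ (norm_nonneg _) h2 2).trans h3
    calc Q * (‖∑ i ∈ s, (q i : ℂ) * (z - v i)‖ ^ 2 / Q ^ 2)
        = ‖∑ i ∈ s, (q i : ℂ) * (z - v i)‖ ^ 2 / Q := by field_simp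
      _ ≤ (Q * ∑ i ∈ s, q i * ‖z - v i‖ ^ 2) / Q := div_le_div_of_nonneg_right h4 h.le
      _ = _ := by field_simp

variable {ΩS Ω P Lb R C : Type*} [Fintype ΩS] [Fintype Ω] [Fintype P]

/-- **T5 core, one coarse value**: the entropy of a letter-valued variable `Rv` under a law `q` on
words. -/
theorem t5_one {q : ΩS → ℝ} (hq : IsProb q) (Rv : ΩS → R)
    {w : Ω → ℝ} (hw : IsProb w) (Pos : Ω → P) (Lab : Ω → Lb) {U : P → ℝ}
    (hU : ∀ p, 0 ≤ U p) (hU1 : ∑ p, U p ≤ 1) (hac : ∀ ω, 0 < w ω → 0 < U (Pos ω))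
    (F : Finset R) (hF : ∀ S, 0 < q S → Rv S ∈ F)
    (e : R → Ω → ℂ) (he : ∀ r ω, ‖e r ω‖ = 1)
    (ψ : ΩS → Lb → ℂ) (hψ : ∀ S l, ‖ψ S l‖ ≤ 1) (θ : Ω → ℂ) (hθ : ∀ ω, ‖θ ω‖ = 1)
    (et : R → P → ℂ) (happ : ∀ r ∈ F, ∀ ω, 0 < w ω → ‖θ ω * e r ω - et r (Pos ω)‖ ≤ 1 / 8)
    {B : ℝ} (hB : 0 ≤ B)
    (hBes : ∀ c : R → ℂ, ∑ p, U p * ‖∑ r ∈ F, c r * et r p‖ ^ 2 ≤ B * ∑ r ∈ F, ‖c r‖ ^ 2)
    {M : ℝ} (hM0 : 0 ≤ M) (hM : log F.card ≤ M) :
    H q Rv ≤ Dj w Pos Lab U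
      + 12 * M * (∑ S, q S * ∑ ω, w ω * ‖e (Rv S) ω - ψ S (Lab ω)‖ ^ 2)
      + log (1 + B) + log (2 * M + 2) + log 8 + 1 := by
  classical
  set pl : R → ℝ := fun r => Pr q Rv r with hpl
  have hpl0 : ∀ r, 0 ≤ pl r := fun r => Pr_nonneg hq Rv r
  have hFz : ∀ r, r ∉ F → pl r = 0 := by
    intro r hr
    show Pr q Rv r = 0
    unfold Pr
    refine sum_eq_zero fun S _ => ?_
    split_ifs with h
    · rcases (hq.nonneg S).eq_or_lt with h0 | h0
      · exact h0.symm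
      · exact absurd (h ▸ hF S h0) hr
    · rfl
  -- sums over the image equal sums over `F`
  have himF : ∀ f : R → ℝ, (∑ r ∈ univ.image Rv, pl r * f r) = ∑ r ∈ F, pl r * f r := by
    intro f
    have h1 : (∑ r ∈ univ.image Rv, pl r * f r) = ∑ r ∈ univ.image Rv ∪ F, pl r * f r := by
      refine sum_subset subset_union_left fun r _ hr => ?_
      have : pl r = 0 := Pr_eq_zero Rv fun S hS => hr (mem_image.mpr ⟨S, mem_univ S, hS⟩)
      rw [this, zero_mul]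
    have h2 : (∑ r ∈ F, pl r * f r) = ∑ r ∈ univ.image Rv ∪ F, pl r * f r := by
      refine sum_subset subset_union_right fun r _ hr => ?_
      rw [hFz r hr, zero_mul]
    rw [h1, h2]
  have hpl1 : ∑ r ∈ F, pl r = 1 := by
    have h1 := himF (fun _ => 1)
    simp only [mul_one] at h1
    rw [← h1]
    exact sum_Pr hq Rv
  have hH : H q Rv = ∑ r ∈ F, -(pl r * log (pl r)) := by
    unfold H
    rw [sum_fiber q Rv (fun r => -log (Pr q Rv r))]
    have h1 := himF (fun r => -log (pl r))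
    rw [show (∑ x ∈ univ.image Rv, Pr q Rv x * -log (Pr q Rv x))
      = ∑ r ∈ univ.image Rv, pl r * -log (pl r) from rfl, h1]
    exact sum_congr rfl fun r _ => by ring
  -- conditional means of the approximants
  set φ : R → Lb → ℂ := fun r l =>
    (∑ S ∈ univ.filter (fun S => Rv S = r), (q S : ℂ) * ψ S l)
      / ((∑ S ∈ univ.filter (fun S => Rv S = r), q S : ℝ) : ℂ) with hφdef
  have hplsum : ∀ r, (∑ S ∈ univ.filter (fun S => Rv S = r), q S) = pl r := by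
    intro r
    rw [sum_filter]
    show _ = Pr q Rv r
    unfold Pr
    exact sum_congr rfl fun S _ => by congr
  have hφ : ∀ r l, ‖φ r l‖ ≤ 1 := by
    intro r l
    rw [hφdef]
    simp only
    rw [norm_div, Complex.norm_real, Real.norm_eq_abs,
      abs_of_nonneg (sum_nonneg fun S _ => hq.nonneg S)]
    refine div_le_one_of_le₀ ?_ (sum_nonneg fun S _ => hq.nonneg S)
    refine (norm_sum_le _ _).trans (sum_le_sum fun S _ => ?_)
    rw [norm_mul, Complex.norm_real, Real.norm_eq_abs, abs_of_nonneg (hq.nonneg S)]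
    have := mul_le_mul_of_nonneg_left (hψ S l) (hq.nonneg S)
    linarith
  have hmain := law_level hw Pos Lab hU hU1 hac F pl (fun r _ => hpl0 r) hpl1 e he φ hφ θ hθ et
    happ hB hBes hM0 hM
  rw [hH]
  refine hmain.trans ?_
  have hs : (∑ r ∈ F, pl r * ∑ ω, w ω * ‖e r ω - φ r (Lab ω)‖ ^ 2)
      ≤ ∑ S, q S * ∑ ω, w ω * ‖e (Rv S) ω - ψ S (Lab ω)‖ ^ 2 := by
    have h1 : ∀ r ∈ F, pl r * (∑ ω, w ω * ‖e r ω - φ r (Lab ω)‖ ^ 2)
        ≤ ∑ S ∈ univ.filter (fun S => Rv S = r),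
          q S * ∑ ω, w ω * ‖e (Rv S) ω - ψ S (Lab ω)‖ ^ 2 := by
      intro r _
      calc pl r * (∑ ω, w ω * ‖e r ω - φ r (Lab ω)‖ ^ 2)
          = ∑ ω, w ω * (pl r * ‖e r ω - φ r (Lab ω)‖ ^ 2) := by
            rw [mul_sum]; exact sum_congr rfl fun ω _ => by ring
        _ ≤ ∑ ω, w ω * ∑ S ∈ univ.filter (fun S => Rv S = r), q S * ‖e r ω - ψ S (Lab ω)‖ ^ 2 := by
            refine sum_le_sum fun ω _ => mul_le_mul_of_nonneg_left ?_ (hw.nonneg ω)
            have := mean_sq (univ.filter (fun S => Rv S = r)) q (fun S _ => hq.nonneg S)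
              (e r ω) (fun S => ψ S (Lab ω))
            rw [hplsum] at this
            rw [hφdef]
            simp only
            rw [hplsum]
            exact this
        _ = ∑ S ∈ univ.filter (fun S => Rv S = r),
          q S * ∑ ω, w ω * ‖e (Rv S) ω - ψ S (Lab ω)‖ ^ 2 := by
            simp only [mul_sum]
            rw [sum_comm]
            refine sum_congr rfl fun S hS => sum_congr rfl fun ω _ => ?_
            rw [(mem_filter.mp hS).2]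
            ring
    refine (sum_le_sum h1).trans ?_
    have h2 : ∑ r ∈ F, ∑ S ∈ univ.filter (fun S => Rv S = r),
          q S * ∑ ω, w ω * ‖e (Rv S) ω - ψ S (Lab ω)‖ ^ 2
        = ∑ S ∈ univ.filter (fun S => Rv S ∈ F),
          q S * ∑ ω, w ω * ‖e (Rv S) ω - ψ S (Lab ω)‖ ^ 2 := by
      rw [← sum_fiberwise_of_maps_to (s := univ.filter (fun S => Rv S ∈ F)) (t := F) (g := Rv)
        (fun S hS => (mem_filter.mp hS).2)]
      refine sum_congr rfl fun r hr => sum_congr ?_ fun _ _ => rfl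
      ext S
      simp only [mem_filter, mem_univ, true_and]
      exact ⟨fun h => ⟨h ▸ hr, h⟩, fun h => h.2⟩
    rw [h2]
    refine sum_le_sum_of_subset_of_nonneg (subset_univ _) fun S _ _ => ?_
    exact mul_nonneg (hq.nonneg S) (sum_nonneg fun ω _ => mul_nonneg (hw.nonneg ω) (by positivity))
  have := mul_le_mul_of_nonneg_left hs (show (0 : ℝ) ≤ 12 * M by positivity)
  linarith

/-- **T5 (potential)**: conditional entropy of the fine rounding `Rv` of the word given the coarse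
rounding `Rc`. -/
theorem t5 {PS : ΩS → ℝ} (hPS : IsProb PS) (Rv : ΩS → R) (Rc : ΩS → C)
    {w : Ω → ℝ} (hw : IsProb w) (Pos : Ω → P) (Lab : Ω → Lb) {U : P → ℝ}
    (hU : ∀ p, 0 ≤ U p) (hU1 : ∑ p, U p ≤ 1) (hac : ∀ ω, 0 < w ω → 0 < U (Pos ω))
    (F : C → Finset R) (hF : ∀ S, 0 < PS S → Rv S ∈ F (Rc S))
    (e : R → Ω → ℂ) (he : ∀ r ω, ‖e r ω‖ = 1)
    (ψ : ΩS → Lb → ℂ) (hψ : ∀ S l, ‖ψ S l‖ ≤ 1)
    (θ : C → Ω → ℂ) (hθ : ∀ ρ ω, ‖θ ρ ω‖ = 1) (et : C → R → P → ℂ)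
    (happ : ∀ ρ, ∀ r ∈ F ρ, ∀ ω, 0 < w ω → ‖θ ρ ω * e r ω - et ρ r (Pos ω)‖ ≤ 1 / 8)
    {B : ℝ} (hB : 0 ≤ B)
    (hBes : ∀ ρ, ∀ c : R → ℂ,
      ∑ p, U p * ‖∑ r ∈ F ρ, c r * et ρ r p‖ ^ 2 ≤ B * ∑ r ∈ F ρ, ‖c r‖ ^ 2)
    {M : ℝ} (hM0 : 0 ≤ M) (hM : ∀ ρ, log (F ρ).card ≤ M) :
    Hc PS Rv Rc ≤ Dj w Pos Lab U
      + 12 * M * (∑ S, PS S * ∑ ω, w ω * ‖e (Rv S) ω - ψ S (Lab ω)‖ ^ 2)
      + log (1 + B) + log (2 * M + 2) + log 8 + 1 := by
  classical
  rw [Hc_fiber hPS Rv Rc]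
  set s : ΩS → ℝ := fun S => ∑ ω, w ω * ‖e (Rv S) ω - ψ S (Lab ω)‖ ^ 2 with hs
  set K := Dj w Pos Lab U + log (1 + B) + log (2 * M + 2) + log 8 + 1 with hK
  have h1 : ∀ ρ ∈ univ.image Rc, Pr PS Rc ρ * H (cnd PS Rc ρ) Rv
      ≤ Pr PS Rc ρ * (K + 12 * M * ∑ S, cnd PS Rc ρ S * s S) := by
    intro ρ _
    rcases (Pr_nonneg hPS Rc ρ).eq_or_lt with h0 | h0
    · rw [← h0, zero_mul, zero_mul]
    · refine mul_le_mul_of_nonneg_left ?_ h0.le
      have hc := cnd_isProb hPS h0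
      have := t5_one hc Rv hw Pos Lab hU hU1 hac (F ρ)
        (fun S hS => by
          have e1 := cnd_pos hS
          have e2 : 0 < PS S := by
            unfold cnd at hS
            rw [if_pos e1] at hS
            by_contra hne
            have := le_antisymm (not_lt.mp hne) (hPS.nonneg S)
            rw [this, zero_div] at hS
            exact lt_irrefl _ hS
          exact e1 ▸ hF S e2) e he ψ hψ (θ ρ) (hθ ρ) (et ρ) (happ ρ) hB (hBes ρ) hM0 (hM ρ)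
      linarith
  refine (sum_le_sum h1).trans (le_of_eq ?_)
  have h2 : ∑ ρ ∈ univ.image Rc, Pr PS Rc ρ * (K + 12 * M * ∑ S, cnd PS Rc ρ S * s S)
      = K + 12 * M * ∑ S, PS S * s S := by
    have e1 := sum_cnd_fiber hPS Rc (fun _ S => s S)
    rw [e1, mul_sum]
    have e2 : K = ∑ ρ ∈ univ.image Rc, Pr PS Rc ρ * K := by rw [← sum_mul, sum_Pr hPS, one_mul]
    conv_rhs => rw [e2]
    rw [← sum_add_distrib]
    exact sum_congr rfl fun ρ _ => by ring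
  rw [h2]
  ring

end

end Vale.Agent.P091.T.H453
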