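import Vale.Agent.P091.T.H453.Int
import Vale.Agent.P091.T.H120.G2
import Vale.Agent.P091.T.Defs

/-!
P091, T5: product laws of words and noises, values `y + t_k`, coherence, value information.
-/

set_option autoImplicit false

namespace Vale.Agent.P091.T.H453

open Finset Real
open Vale.Agent.P065.Ent
open Vale.Agent.P091.T.H120 (sum_prod_marg)
open Vale.Agent.P091.T (prw)

noncomputable section

section general

variable {G : Type*} [Fintype G] {K : Type*} [Fintype K] [DecidableEq K]

/-- product law of words -/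
def wordLaw (P : K → G → ℝ) (S : K → G) : ℝ := ∏ k, P k (S k)

theorem wordLaw_isProb {P : K → G → ℝ} (hP : ∀ k, IsProb (P k)) : IsProb (wordLaw P) := by
  refine ⟨fun S => prod_nonneg fun k _ => (hP k).nonneg _, ?_⟩
  unfold wordLaw
  rw [← Fintype.prod_sum (fun k g => P k g)]
  exact prod_eq_one fun k _ => (hP k).sum

theorem wordLaw_marg {P : K → G → ℝ} (hP : ∀ k, IsProb (P k)) (k : K) (f : G → ℝ) :
    ∑ S, wordLaw P S * f (S k) = ∑ g, P k g * f g :=
  sum_prod_marg (α := fun _ : K => G) (p := P) (fun k => (hP k).sum) k f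

theorem prw_isProb {X X' : Type*} [Fintype X] [Fintype X'] {μ : X → ℝ} {ν : X' → ℝ}
    (hμ : IsProb μ) (hν : IsProb ν) : IsProb (prw μ ν) := by
  refine ⟨fun w => mul_nonneg (hμ.nonneg _) (hν.nonneg _), ?_⟩
  unfold prw
  rw [Fintype.sum_prod_type]
  simp only [← mul_sum, hν.sum, mul_one, hμ.sum]

theorem sum_prw {X X' : Type*} [Fintype X] [Fintype X'] (μ : X → ℝ) (ν : X' → ℝ)
    (f : X → X' → ℝ) : ∑ w, prw μ ν w * f w.1 w.2 = ∑ x, μ x * ∑ x', ν x' * f x x' := by
  unfold prw
  rw [Fintype.sum_prod_type]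
  refine sum_congr rfl fun x _ => ?_
  rw [mul_sum]
  exact sum_congr rfl fun x' _ => by ring

omit [Fintype K] in
/-- a full product of unimodular numbers is close to one when the factors are -/
theorem norm_prod_sub_one_le {s : Finset K} (z : K → ℂ) (hz : ∀ k, ‖z k‖ = 1) :
    ‖1 - ∏ k ∈ s, z k‖ ≤ ∑ k ∈ s, ‖1 - z k‖ := by
  induction s using Finset.induction_on with
  | empty => simp
  | insert k s hk ih =>
    rw [prod_insert hk, sum_insert hk]
    have h1 : 1 - z k * ∏ k ∈ s, z k = (1 - z k) + z k * (1 - ∏ k ∈ s, z k) := by ring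
    rw [h1]
    refine (norm_add_le _ _).trans ?_
    rw [norm_mul, hz, one_mul]
    linarith

theorem norm_prod_sub_one_sq (z : K → ℂ) (hz : ∀ k, ‖z k‖ = 1) :
    ‖1 - ∏ k, z k‖ ^ 2 ≤ Fintype.card K * ∑ k, ‖1 - z k‖ ^ 2 := by
  calc ‖1 - ∏ k, z k‖ ^ 2 ≤ (∑ k, ‖1 - z k‖) ^ 2 :=
        pow_le_pow_left₀ (norm_nonneg _) (norm_prod_sub_one_le z hz) 2
    _ ≤ _ := sq_sum_le_card_mul_sum_sq

/-- law of (point, noises) -/
def muK (lam : G → ℝ) (ρ : K → G → ℝ) : G × (K → G) → ℝ := prw lam (wordLaw ρ)

theorem muK_isProb {lam : G → ℝ} (hlam : IsProb lam) {ρ : K → G → ℝ} (hρ : ∀ k, IsProb (ρ k)) :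
    IsProb (muK lam ρ) := prw_isProb hlam (wordLaw_isProb hρ)

theorem muK_marg {lam : G → ℝ} {ρ : K → G → ℝ} (hρ : ∀ k, IsProb (ρ k)) (k : K)
    (f : G → G → ℝ) :
    ∑ w : G × (K → G), muK lam ρ w * f w.1 (w.2 k) = ∑ w, prw lam (ρ k) w * f w.1 w.2 := by
  rw [sum_prw, muK, sum_prw lam (wordLaw ρ) (fun y T => f y (T k))]
  exact sum_congr rfl fun y _ => by rw [wordLaw_marg hρ k (fun g => f y g)]

variable [AddCommGroup G]

/-- the values -/
def val (w : G × (K → G)) : K → G := fun k => w.1 + w.2 k

/-- the joint law of point and values -/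
theorem Pr_pair_val (lam : G → ℝ) (ρ : K → G → ℝ) (w : G × (K → G)) :
    Pr (muK lam ρ) (fun w => (w.1, val w)) (w.1, val w) = muK lam ρ w := by
  classical
  unfold Pr
  rw [sum_eq_single w]
  · rw [if_pos rfl]
  · intro w' _ hne
    rw [if_neg]
    intro h
    rw [Prod.mk.injEq] at h
    apply hne
    refine Prod.ext h.1 (funext fun k => ?_)
    have := congrFun h.2 k
    unfold val at this
    rw [h.1] at this
    exact add_left_cancel this
  · intro h; exact absurd (mem_univ _) h

omit [AddCommGroup G] in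
/-- entropy of a product law of words is not needed; only the sum of the logarithms -/
theorem sum_log_word {lam : G → ℝ} (hlam : IsProb lam) {ρ : K → G → ℝ}
    (hρ : ∀ k, IsProb (ρ k)) :
    ∑ w, muK lam ρ w * log (wordLaw ρ w.2) = ∑ k, ∑ g, ρ k g * log (ρ k g) := by
  have h1 : ∀ w : G × (K → G), muK lam ρ w * log (wordLaw ρ w.2)
      = ∑ k, muK lam ρ w * log (ρ k (w.2 k)) := by
    intro w
    rw [← mul_sum]
    by_cases h : wordLaw ρ w.2 = 0
    · unfold muK prw
      rw [h, mul_zero, zero_mul, zero_mul]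
    · congr 1
      unfold wordLaw at h ⊢
      rw [log_prod]
      intro k _ hk
      exact h (prod_eq_zero (mem_univ k) hk)
  rw [sum_congr rfl fun w _ => h1 w, sum_comm]
  refine sum_congr rfl fun k _ => ?_
  rw [muK_marg hρ k (fun _ g => log (ρ k g)), sum_prw lam (ρ k) (fun _ g => log (ρ k g)),
    ← sum_mul, hlam.sum, one_mul]

/-- entropy of one value -/
theorem H_value {lam : G → ℝ} {ρ : K → G → ℝ} (hρ : ∀ k, IsProb (ρ k)) (k : K) (g : G) :
    Pr (muK lam ρ) (fun w => w.1 + w.2 k) g = Pr (prw lam (ρ k)) (fun w => w.1 + w.2) g := by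
  classical
  unfold Pr
  have := muK_marg (lam := lam) hρ k (fun y t => if y + t = g then 1 else 0)
  simp only [mul_ite, mul_one, mul_zero] at this
  exact this

/-- information of one value -/
theorem I_value {lam : G → ℝ} (hlam : IsProb lam) {ρ : G → ℝ} (hρ : IsProb ρ) :
    I (prw lam ρ) (fun w => w.1) (fun w => w.1 + w.2) (fun _ => ())
      = H (prw lam ρ) (fun w => w.1 + w.2) + ∑ g, ρ g * log (ρ g) := by
  have hμ := prw_isProb hlam hρ
  rw [I_symm]
  unfold I
  rw [Hc_const hμ]
  have h1 : Hc (prw lam ρ) (fun w => w.1 + w.2) (fun w => (w.1, ()))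
      = -∑ g, ρ g * log (ρ g) := by
    rw [Hc_eq_sum hμ, ← sum_neg_distrib]
    have h2 : ∀ w : G × G, prw lam ρ w * -log (Pr (prw lam ρ)
        (fun w => (w.1 + w.2, (w.1, ()))) (w.1 + w.2, (w.1, ()))
          / Pr (prw lam ρ) (fun w => (w.1, ())) (w.1, ()))
        = prw lam ρ w * (-log (ρ w.2)) := by
      intro w
      rcases (hμ.nonneg w).eq_or_lt with h | h
      · rw [← h]; simp
      · have h3 : Pr (prw lam ρ) (fun w => (w.1 + w.2, (w.1, ()))) (w.1 + w.2, (w.1, ()))
            = lam w.1 * ρ w.2 := by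
          classical
          unfold Pr
          rw [sum_eq_single w]
          · rw [if_pos rfl]; rfl
          · intro w' _ hne
            rw [if_neg]
            intro h
            simp only [Prod.mk.injEq, and_true] at h
            apply hne
            refine Prod.ext h.2 ?_
            have := h.1
            rw [h.2] at this
            exact add_left_cancel this
          · intro h; exact absurd (mem_univ _) h
        have h4 : Pr (prw lam ρ) (fun w => (w.1, ())) (w.1, ()) = lam w.1 := by
          classical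
          unfold Pr
          refine Eq.trans (b := ∑ w' : G × G, prw lam ρ w' * (if w'.1 = w.1 then (1 : ℝ) else 0))
            (sum_congr rfl fun w' _ => by by_cases h : w'.1 = w.1 <;> simp [h]) ?_
          calc ∑ w' : G × G, prw lam ρ w' * (if w'.1 = w.1 then (1 : ℝ) else 0)
              = ∑ y, lam y * ∑ t, ρ t * (if y = w.1 then (1 : ℝ) else 0) :=
                sum_prw lam ρ (fun y _ => if y = w.1 then (1 : ℝ) else 0)
            _ = lam w.1 := by
                rw [sum_eq_single w.1]
                · simp [hρ.sum]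
                · intro y _ hne
                  simp [hne]
                · intro h; exact absurd (mem_univ _) h
        rw [h3, h4]
        have h5 : lam w.1 ≠ 0 := by
          intro h0
          unfold prw at h
          rw [h0, zero_mul] at h
          exact lt_irrefl _ h
        rw [mul_div_cancel_left₀ _ h5]
    rw [sum_congr rfl fun w _ => h2 w, sum_prw lam ρ (fun _ t => -log (ρ t)), ← sum_mul,
      hlam.sum, one_mul]
    exact sum_congr rfl fun g _ => by ring
  rw [h1]
  ring

/-- **value information and position divergence**: for `U > 0` on the support of `lam` -/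
theorem Dj_le {lam : G → ℝ} (hlam : IsProb lam) {ρ : K → G → ℝ} (hρ : ∀ k, IsProb (ρ k))
    {P : Type*} (pos : G → P) (U : P → ℝ) (hpos : Function.Injective pos)
    (hU : ∀ y, 0 < lam y → 0 < U (pos y)) :
    Dj (muK lam ρ) (fun w => pos w.1) val U
      ≤ ∑ y, lam y * log (lam y / U (pos y))
        + ∑ k, I (prw lam (ρ k)) (fun w => w.1) (fun w => w.1 + w.2) (fun _ => ()) := by
  classical
  have hμ := muK_isProb hlam hρ
  -- entropy of the values
  have hH : ∑ w, muK lam ρ w * (-log (Pr (muK lam ρ) val (val w)))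
      ≤ ∑ k, H (prw lam (ρ k)) (fun w => w.1 + w.2) := by
    have hg := gibbs hμ (val : G × (K → G) → K → G) (fun _ => ())
      (fun _ l => ∏ k, Pr (muK lam ρ) (fun w => w.1 + w.2 k) (l k))
      (fun w hw => prod_pos fun k _ => Pr_pos hμ (fun w : G × (K → G) => w.1 + w.2 k) hw)
      (fun w l _ => prod_nonneg fun k _ => Pr_nonneg hμ _ _)
      (fun w => by
        calc ∑ l ∈ univ.image val, ∏ k, Pr (muK lam ρ) (fun w => w.1 + w.2 k) (l k)
            ≤ ∑ l : K → G, ∏ k, Pr (muK lam ρ) (fun w => w.1 + w.2 k) (l k) :=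
              sum_le_sum_of_subset_of_nonneg (subset_univ _) fun l _ _ =>
                prod_nonneg fun k _ => Pr_nonneg hμ _ _
          _ = ∏ k, ∑ g, Pr (muK lam ρ) (fun w => w.1 + w.2 k) g :=
              (Fintype.prod_sum (fun k g => Pr (muK lam ρ) (fun w => w.1 + w.2 k) g)).symm
          _ = 1 := by
              refine prod_eq_one fun k _ => ?_
              have h1 := sum_Pr hμ (fun w : G × (K → G) => w.1 + w.2 k)
              rw [← h1]
              symm
              refine sum_subset (subset_univ _) fun g _ hg => ?_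
              exact Pr_eq_zero _ fun w hw => hg (mem_image.mpr ⟨w, mem_univ w, hw⟩)
          _ ≤ 1 := le_rfl)
    rw [Hc_const hμ] at hg
    refine hg.trans (le_of_eq ?_)
    have h2 : ∀ w : G × (K → G), muK lam ρ w * (-log (∏ k, Pr (muK lam ρ)
        (fun w => w.1 + w.2 k) (val w k)))
        = ∑ k, muK lam ρ w * (-log (Pr (prw lam (ρ k)) (fun w => w.1 + w.2) (w.1 + w.2 k))) := by
      intro w
      rcases (hμ.nonneg w).eq_or_lt with h | h
      · rw [← h]; simp
      · rw [log_prod (s := univ) (f := fun k => Pr (muK lam ρ) (fun w => w.1 + w.2 k) (val w k))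
          (fun k _ => (Pr_pos hμ (fun w : G × (K → G) => w.1 + w.2 k) h).ne'),
          ← mul_sum, ← sum_neg_distrib]
        congr 1
        refine sum_congr rfl fun k _ => ?_
        rw [H_value hρ k]
        rfl
    rw [sum_congr rfl fun w _ => h2 w, sum_comm]
    refine sum_congr rfl fun k _ => ?_
    rw [muK_marg hρ k (fun y t => -log (Pr (prw lam (ρ k)) (fun w => w.1 + w.2) (y + t)))]
    rfl
  -- decomposition of the divergence
  have hdec : Dj (muK lam ρ) (fun w => pos w.1) val U
      = ∑ y, lam y * log (lam y / U (pos y)) + ∑ w, muK lam ρ w * log (wordLaw ρ w.2)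
        + ∑ w, muK lam ρ w * (-log (Pr (muK lam ρ) val (val w))) := by
    have h1 : ∑ y, lam y * log (lam y / U (pos y))
        = ∑ w, muK lam ρ w * log (lam w.1 / U (pos w.1)) := by
      unfold muK
      rw [sum_prw lam (wordLaw ρ) (fun y _ => log (lam y / U (pos y)))]
      refine sum_congr rfl fun y _ => ?_
      rw [← sum_mul, (wordLaw_isProb hρ).sum, one_mul]
    rw [h1, ← sum_add_distrib, ← sum_add_distrib]
    unfold Dj
    refine sum_congr rfl fun w _ => ?_
    rcases (hμ.nonneg w).eq_or_lt with h | h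
    · rw [← h]; simp
    · have hp : Pr (muK lam ρ) (fun w => (pos w.1, val w)) (pos w.1, val w) = muK lam ρ w := by
        rw [← Pr_pair_val lam ρ w]
        refine Pr_congr (X := fun w : G × (K → G) => (pos w.1, val w))
          (Y := fun w : G × (K → G) => (w.1, val w)) ?_ ?_ w
        · intro a b h
          rw [Prod.mk.injEq] at h ⊢
          exact ⟨hpos h.1, h.2⟩
        · intro a b h
          rw [Prod.mk.injEq] at h ⊢
          exact ⟨by rw [h.1], h.2⟩
      rw [hp]
      have h2 : muK lam ρ w = lam w.1 * wordLaw ρ w.2 := rfl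
      have h3 : lam w.1 ≠ 0 := fun h0 => by
        rw [h2, h0, zero_mul] at h; exact lt_irrefl _ h
      have h4 : wordLaw ρ w.2 ≠ 0 := fun h0 => by
        rw [h2, h0, mul_zero] at h; exact lt_irrefl _ h
      have h5 : 0 < lam w.1 := lt_of_le_of_ne (hlam.nonneg _) (Ne.symm h3)
      have h6 := (hU w.1 h5).ne'
      have h7 := (Pr_pos hμ (val : G × (K → G) → K → G) h).ne'
      rw [h2, log_div (mul_ne_zero h3 h4) (mul_ne_zero h7 h6), log_mul h3 h4, log_mul h7 h6,
        log_div h3 h6]
      ring
  rw [hdec, sum_log_word hlam hρ]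
  have hI : ∑ k, I (prw lam (ρ k)) (fun w => w.1) (fun w => w.1 + w.2) (fun _ => ())
      = ∑ k, H (prw lam (ρ k)) (fun w => w.1 + w.2) + ∑ k, ∑ g, ρ k g * log (ρ k g) := by
    rw [← sum_add_distrib]
    exact sum_congr rfl fun k _ => I_value hlam (hρ k)
  rw [hI]
  linarith

end general

end

end Vale.Agent.P091.T.H453
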